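import Vale.Agent.P242.H924.Core3
import Vale.Agent.P242.H71.Voc
import Vale.Agent.P242.H992.Lib
import Vale.Agent.P242.H254.E1a

/-! P242, A-E4 (helper924): basic facts on `w_y`, `β_y(s) = P_s w_y(y) + 1/2`, `ν_{y,s}` in the
vocabulary of `H71/Voc.lean`. -/

set_option linter.all false

open MeasureTheory Filter Topology Set
open scoped ENNReal NNReal

universe u

namespace Vale.Agent.P242.H924

open Vale.Agent.P233 Vale.Agent.P233.RA Vale.Agent.P242.H71 Vale.Agent.P242.H990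

variable {M : Type u} [MetricSpace M] [CompleteSpace M] [SecondCountableTopology M]
  [MeasurableSpace M] [BorelSpace M] {m : Measure M} {n : ℕ} {K A : ℝ} {o : M} {p : ℝ → M → M → ℝ}

/-- the library hypotheses -/
theorem cd (h : HypL m n K) : CD.Hyp m n K := ⟨h.1, h.2, h.3, h.4⟩

/-- library facts of an environment -/
structure Facts (m : Measure M) (n : ℕ) (K : ℝ) : Prop where
  nsp : ∃ θ : M → ℝ, N2.RA.NSp m n K θ
  gam : IsGamma (sob m)
  be : (sob m).BE K n
  sf : SigmaFinite m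
  npos : (0 : ℝ) < n

theorem facts (h : HypL m n K) : Facts m n K := by
  have h2 := cd h
  obtain ⟨θ, t⟩ := H992.nsp2 h2
  exact ⟨H992.nsp h2, t.isGamma, H992.be h2, sigmaFinite_of_ball t.fin, by exact_mod_cast t.n_pos⟩

/-- the centre family of an environment -/
theorem cen (hC : IsGamma (sob m)) (h : Env m n K o A p) (y : M) :
    Vale.Agent.P233.Cen (sob m) (fun s => ph m p s y) where
  mem2 s hs := ph_mem2 h.ker hs y
  top s hs := ph_top hC h.ker h.kb hs y
  nonneg s hs := ph_nonneg h.ker hs y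
  mem1 s hs := ph_mem1 h.ker hs y
  mass s hs := I_ph h.ker hs y
  semi s t hs ht := P_ph hC.toIsDir h.ker ht hs y

/-- the class `w_y` -/
noncomputable def wy (m : Measure M) (y : M) : M →ₘ[m] ℝ := cl m (ww (1 / 2) y)

section w

variable {θ : M → ℝ}

theorem wy_A (h : N2.RA.NSp m n K θ) (y : M) : wy m y ∈ (sob m).A :=
  N2.H982.ww_A h.fin (by norm_num) y

theorem wy_ae (y : M) : ∀ᵐ x ∂m, wy m y x = ww (1 / 2) y x :=
  N2.H982.ww_ae (m := m) (by norm_num) y

theorem wy_bd (y : M) : ∀ᵐ x ∂m, 0 ≤ wy m y x + 1 / 2 ∧ wy m y x + 1 / 2 ≤ dist x y ^ 2 / 2 ∧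
    wy m y x ≤ 0 := by
  filter_upwards [wy_ae (m := m) y] with x hx
  rw [hx]
  have e : ww (1 / 2) y x = min (dist x y ^ 2 / 2) (1 / 2) - 1 / 2 := rfl
  rw [e]
  refine ⟨?_, ?_, ?_⟩
  · have : 0 ≤ min (dist x y ^ 2 / 2) (1 / 2 : ℝ) := le_min (by positivity) (by norm_num)
    linarith
  · have := min_le_left (dist x y ^ 2 / 2) (1 / 2 : ℝ)
    linarith
  · have := min_le_right (dist x y ^ 2 / 2) (1 / 2 : ℝ)
    linarith

/-- `|∇w|² ≤ 2 (w + 1/2)` -/
theorem wy_grad (h : N2.RA.NSp m n K θ) (y : M) :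
    ∀ᵐ x ∂m, (sob m).Γ (wy m y) (wy m y) x ≤ 2 * (wy m y x + 1 / 2) := by
  have hA := wy_A h y
  filter_upwards [H992.ww_grad_eq h (δ := 1 / 2) (by norm_num) y,
    H992.ww_grad_zero h (δ := 1 / 2) (by norm_num) y hA.1, wy_ae (m := m) y] with x h1 h2 h3
  rw [h3]
  rcases lt_or_ge (gg y x) (1 / 2) with h4 | h4
  · have := h1 h4
    rw [N2.H982.ww_of_lt h4]
    change (sob m).Γ (cl m (ww (1 / 2) y)) (cl m (ww (1 / 2) y)) x ≤ _
    rw [this]
    linarith
  · have := h2 h4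
    rw [N2.H982.ww_of_ge h4]
    change (sob m).Γ (cl m (ww (1 / 2) y)) (wy m y) x ≤ _
    rw [this]
    norm_num

/-- positivity of `ν_y` on nonnegative integrable Sobolev functions -/
theorem nuF_nonneg (h : N2.RA.NSp m n K θ) (y : M) {φ : M →ₘ[m] ℝ} (hφ : φ ∈ (sob m).W)
    (h1 : MemLp φ 1 m) (h0 : 0 ≤ φ) : 0 ≤ nuF m n K y φ := by
  have hwA := wy_A h y
  have hlc := H992.lc_all h (δ := 1 / 2) (by norm_num) y hφ h0
  have hφ2 := h.isDir.memLp _ hφ
  have ha2 : MemLp (cl m (H992.aa n K (1 / 2) y)) 2 m := H992.aa_mem h.fin (by norm_num) y 2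
  have k1 : MemLp (cl m (H992.aa n K (1 / 2) y) * φ) 1 m := mem_mul_22 ha2 hφ2
  have k2 : MemLp (φ * wy m y) 1 m := mem_mul_22 hφ2 (h.isDir.memLp _ hwA.1)
  have key : I (cl m (H992.aa n K (1 / 2) y) * φ)
      ≤ I (((n : ℝ) + (|K| + 1) / 2) • φ + (|K| + 1) • (φ * wy m y)) := by
    refine I_mono k1 (mem_add (mem_smul _ h1) (mem_smul _ k2)) ?_
    rw [le_iff_ae]
    filter_upwards [mul_ae (cl m (H992.aa n K (1 / 2) y)) φ,
      H992.aa_ae (m := m) (n := n) (K := K) (δ := 1 / 2) y,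
      add_ae (((n : ℝ) + (|K| + 1) / 2) • φ) ((|K| + 1) • (φ * wy m y)),
      smul_ae φ ((n : ℝ) + (|K| + 1) / 2), smul_ae (φ * wy m y) (|K| + 1), mul_ae φ (wy m y),
      wy_ae (m := m) y, nonneg_iff_ae.1 h0] with x a1 a2 a3 a4 a5 a6 a7 a8
    rw [a1, a2, a3, a4, a5, a6, a7]
    have hg : 0 ≤ gg y x := N2.H982.gg_nonneg y x
    have hK0 := abs_nonneg K
    have hK1 := neg_abs_le K
    have hcase : H992.aa n K (1 / 2) y x ≤ (n : ℝ) + (|K| + 1) / 2 + (|K| + 1) * ww (1 / 2) y x := by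
      rcases lt_or_ge (gg y x) (1 / 2) with h4 | h4
      · rw [H992.aa_of_lt h4, N2.H982.ww_of_lt h4]
        have : -(2 * K / 3) * gg y x ≤ (|K| + 1) * gg y x :=
          mul_le_mul_of_nonneg_right (by linarith) hg
        linarith
      · rw [H992.aa_of_ge h4, N2.H982.ww_of_ge h4]
        have : (0 : ℝ) ≤ n := Nat.cast_nonneg n
        nlinarith
    have := mul_le_mul_of_nonneg_right hcase a8
    linarith
  rw [I_add (mem_smul _ h1) (mem_smul _ k2), I_smul, I_smul] at key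
  unfold nuF
  change 0 ≤ ((n : ℝ) + (|K| + 1) / 2) * I φ + (|K| + 1) * I (φ * wy m y)
    + I ((sob m).Γ (wy m y) φ)
  have : -I ((sob m).Γ (wy m y) φ) ≤ I (cl m (H992.aa n K (1 / 2) y) * φ) := hlc
  linarith

end w

section env

variable {θ : M → ℝ} {s t T : ℝ}

theorem nu_nonneg (h : Env m n K o A p) (y x : M) (hs : 0 < s) : 0 ≤ nu m n K p y s x := by
  obtain ⟨⟨θ, hN⟩, hC, _, _, _⟩ := facts h.hyp
  exact nuF_nonneg hN y (ph_mem hC.toIsDir h.ker hs x) (ph_mem1 h.ker hs x) (ph_nonneg h.ker hs x)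

/-- `ν_{y,s}(x) = n + K₁ (P_s w_y(x) + 1/2) - (Δ P_s w_y)(x)` -/
theorem nu_eq (h : Env m n K o A p) (y x : M) (hs : 0 < s) :
    nu m n K p y s x = n + (|K| + 1) * (PP m p s x (wy m y) + 1 / 2)
      - I ((sob m).lap (ph m p s x) * wy m y) := by
  obtain ⟨⟨θ, hN⟩, hC, _, _, _⟩ := facts h.hyp
  have hwA := wy_A hN y
  have h1 := I_Γ_ph hC.toIsDir h.ker hs x hwA.1
  rw [hC.symm _ (ph_mem hC.toIsDir h.ker hs x) _ hwA.1] at h1
  have h2 := I_ph h.ker hs x
  unfold nu nuF PP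
  change ((n : ℝ) + (|K| + 1) / 2) * I (ph m p s x) + (|K| + 1) * I (ph m p s x * wy m y)
    + I ((sob m).Γ (wy m y) (ph m p s x)) = _
  rw [h1, h2]
  ring

/-- the Laplacian of `P_T w_y`, tested at an earlier time -/
theorem ell_eq (h : Env m n K o A p) (y x : M) {r : ℝ} (hr : 0 < r) (hrT : r < T) :
    I (ph m p r x * (sob m).lap ((sob m).P (T - r) (wy m y)))
      = I ((sob m).lap (ph m p T x) * wy m y) := by
  obtain ⟨⟨θ, hN⟩, hC, _, _, _⟩ := facts h.hyp
  have hwA := wy_A hN y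
  have hw2 := hC.memLp _ hwA.1
  rw [I_ph_lap hC.toIsDir h.ker hr x (hC.toIsDir.P_isLap (by linarith : 0 < T - r) hw2),
    I_lap_ph_P hC.toIsDir h.ker (by linarith : 0 ≤ T - r) hr x hw2]
  congr 4
  ring

/-- `β_y(s) = P_s w_y(y) + 1/2 ≥ 0` -/
theorem beta_nonneg (h : Env m n K o A p) (y x : M) (hs : 0 < s) :
    0 ≤ PP m p s x (wy m y) + 1 / 2 := by
  have h1 : PP m p s x (wy m y) + 1 / 2 = ∫ z, p s x z * (wy m y z + 1 / 2) ∂m := by
    unfold PP
    rw [I_ph_mul h.ker hs x]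
    obtain ⟨⟨θ, hN⟩, hC, _, _, _⟩ := facts h.hyp
    have i1 := pt_int h.ker hs x (hC.memLp _ (wy_A hN y).1)
    have e : ∀ z, p s x z * (wy m y z + 1 / 2) = p s x z * wy m y z + 1 / 2 * p s x z := by
      intro z; ring
    simp only [e]
    rw [integral_add i1 ((h.ker.int s hs x).const_mul _), integral_const_mul, h.ker.mass s hs x]
    unfold H520.pt
    ring
  rw [h1]
  refine integral_nonneg_of_ae ?_
  filter_upwards [wy_bd (m := m) y] with z hz
  exact mul_nonneg (h.ker.nonneg s hs x z) hz.1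

/-- `β_y(s) ≤ C s` for small `s` -/
theorem beta_small (h : Env m n K o A p) (y : M) : ∃ C₀ : ℝ, 0 ≤ C₀ ∧
    ∀ s, 0 < s → 4 * A ^ 2 * s ≤ 1 / 2 → PP m p s y (wy m y) + 1 / 2 ≤ C₀ * s := by
  obtain ⟨⟨θ, hN⟩, hC, _, _, _⟩ := facts h.hyp
  have hA := h.kb.one_le
  have hA0 := h.kb.pos
  refine ⟨1 / 2 * (cG n A (4 * A ^ 2) 0 * (cW A 2 * Real.exp (A * 0 ^ 2)) *
    Real.exp (2 * A * dist y o)), ?_, ?_⟩
  · have h1 := cG_pos (n := n) (C₀ := 0) hA (show 0 < 4 * A ^ 2 by positivity)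
    have h2 := cW_pos (A := A) (N := 2)
    positivity
  intro s hs hs1
  have hs' : 0 < 4 * A ^ 2 * s := by positivity
  have hi : Integrable (fun z => p (4 * A ^ 2 * s) y z * (1 : ℝ)) m := by
    simpa using h.ker.int _ hs' y
  have hw := h.kb.weight (kmeas h.ker) (Γ := 4 * A ^ 2) (C₀ := 0) (s := s) (s' := 4 * A ^ 2 * s)
    (x := y) (x' := y) hs le_rfl le_rfl hs1 (by simp) (F := fun _ => (1 : ℝ))
    aestronglyMeasurable_const hi 2 0
  obtain ⟨hw1, hw2⟩ := hw
  have hmass : ∫ z, p (4 * A ^ 2 * s) y z * |(1 : ℝ)| ∂m = 1 := by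
    simp only [abs_one, mul_one]
    exact h.ker.mass _ hs' y
  rw [hmass, mul_one] at hw2
  simp only [abs_one, mul_one] at hw2 hw1
  have h1 : PP m p s y (wy m y) + 1 / 2 = ∫ z, p s y z * (wy m y z + 1 / 2) ∂m := by
    unfold PP
    rw [I_ph_mul h.ker hs y]
    have i1 := pt_int h.ker hs y (hC.memLp _ (wy_A hN y).1)
    have e : ∀ z, p s y z * (wy m y z + 1 / 2) = p s y z * wy m y z + 1 / 2 * p s y z := by
      intro z; ring
    simp only [e]
    rw [integral_add i1 ((h.ker.int s hs y).const_mul _), integral_const_mul, h.ker.mass s hs y]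
    unfold H520.pt
    ring
  have i2 : Integrable (fun z => p s y z * (wy m y z + 1 / 2)) m := by
    have i1 := pt_int h.ker hs y (hC.memLp _ (wy_A hN y).1)
    refine (i1.add ((h.ker.int s hs y).const_mul (1 / 2))).congr (Eventually.of_forall fun z => ?_)
    simp only [Pi.add_apply]
    ring
  have hss : √s * √s = s := Real.mul_self_sqrt hs.le
  have hs0 : 0 < √s := Real.sqrt_pos.2 hs
  have key : ∫ z, p s y z * (wy m y z + 1 / 2) ∂m
      ≤ ∫ z, s / 2 * ((1 + dist y z / √s) ^ 2 * Real.exp (0 * dist y z) * p s y z) ∂m := by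
    refine integral_mono_ae i2 (hw1.const_mul _) ?_
    filter_upwards [wy_bd (m := m) y] with z hz
    have hp := h.ker.nonneg s hs y z
    have h3 : wy m y z + 1 / 2 ≤ s / 2 * (1 + dist y z / √s) ^ 2 := by
      refine hz.2.1.trans ?_
      have e1 : s / 2 * (1 + dist y z / √s) ^ 2 = (√s + dist y z) ^ 2 / 2 := by
        have : (1 + dist y z / √s) = (√s + dist y z) / √s := by field_simp
        rw [this, div_pow, sq (√s), hss]
        field_simp
      rw [e1, dist_comm z y]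
      have hd : 0 ≤ dist y z := dist_nonneg
      nlinarith
    have h4 := mul_le_mul_of_nonneg_left h3 hp
    simp only [zero_mul, Real.exp_zero, mul_one]
    calc p s y z * (wy m y z + 1 / 2) ≤ p s y z * (s / 2 * (1 + dist y z / √s) ^ 2) := h4
      _ = s / 2 * ((1 + dist y z / √s) ^ 2 * p s y z) := by ring
  rw [h1]
  refine key.trans ?_
  rw [integral_const_mul]
  have := mul_le_mul_of_nonneg_left hw2 (show 0 ≤ s / 2 by positivity)
  calc s / 2 * ∫ z, (1 + dist y z / √s) ^ 2 * Real.exp (0 * dist y z) * p s y z ∂m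
      ≤ s / 2 * (cG n A (4 * A ^ 2) 0 * (cW A 2 * Real.exp (A * 0 ^ 2)) *
        Real.exp (2 * A * dist y o)) := this
    _ = _ := by ring

/-- `β_y(T) ≤ n T e^{K₁ T}` -/
theorem beta_le (h : Env m n K o A p) (y : M) (hT : 0 < T) :
    PP m p T y (wy m y) + 1 / 2 ≤ n * T * Real.exp ((|K| + 1) * T) := by
  obtain ⟨⟨θ, hN⟩, hC, _, _, hn⟩ := facts h.hyp
  obtain ⟨C₀, hC0, hsm⟩ := beta_small h y
  have hA0 := h.kb.pos
  have hwA := wy_A hN y
  have hw2 := hC.memLp _ hwA.1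
  set K₁ := |K| + 1 with hK₁
  have hK0 : 0 ≤ K₁ := by positivity
  set β : ℝ → ℝ := fun s => PP m p s y (wy m y) + 1 / 2 with hβ
  have hd : ∀ s, 0 < s → HasDerivAt β (I ((sob m).lap (ph m p s y) * wy m y)) s := fun s hs =>
    (hasDerivAt_ph hC.toIsDir h.ker hs y hw2).add_const _
  have hle : ∀ s, 0 < s → I ((sob m).lap (ph m p s y) * wy m y) ≤ n + K₁ * β s := fun s hs => by
    have h1 := nu_nonneg h y y hs
    rw [nu_eq h y y hs] at h1
    simp only [hβ]
    linarith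
  have hd2 : ∀ s, 0 < s → HasDerivAt (fun r => Real.exp (-(K₁ * r)) * β r)
      (Real.exp (-(K₁ * s)) * (I ((sob m).lap (ph m p s y) * wy m y) - K₁ * β s)) s := by
    intro s hs
    have h1 : HasDerivAt (fun r => -(K₁ * r)) (-K₁) s := by
      have := (hasDerivAt_id s).const_mul (-K₁)
      simp only [id, mul_one] at this
      refine this.congr_of_eventuallyEq (Eventually.of_forall fun r => ?_)
      ring
    refine (h1.exp.mul (hd s hs)).congr_deriv ?_
    ring
  have key : ∀ s₀, 0 < s₀ → s₀ < T → 4 * A ^ 2 * s₀ ≤ 1 / 2 →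
      Real.exp (-(K₁ * T)) * β T ≤ C₀ * s₀ + n * (T - s₀) := by
    intro s₀ h1 h2 h3
    have hmv := Convex.image_sub_le_mul_sub_of_deriv_le (convex_Icc s₀ T)
      (f := fun r => Real.exp (-(K₁ * r)) * β r)
      (fun r hr => (hd2 r (by linarith [hr.1])).continuousAt.continuousWithinAt)
      (fun r hr => by
        rw [interior_Icc] at hr
        exact (hd2 r (by linarith [hr.1])).differentiableAt.differentiableWithinAt)
      (C := (n : ℝ))
      (fun r hr => by
        rw [interior_Icc] at hr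
        have hr0 : 0 < r := by linarith [hr.1]
        rw [(hd2 r hr0).deriv]
        have g1 := hle r hr0
        have g2 : Real.exp (-(K₁ * r)) ≤ 1 := by
          rw [Real.exp_le_one_iff]
          have := mul_nonneg hK0 hr0.le
          linarith
        calc Real.exp (-(K₁ * r)) * (I ((sob m).lap (ph m p r y) * wy m y) - K₁ * β r)
            ≤ Real.exp (-(K₁ * r)) * n :=
              mul_le_mul_of_nonneg_left (by linarith) (Real.exp_pos _).le
          _ ≤ 1 * n := mul_le_mul_of_nonneg_right g2 hn.le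
          _ = n := one_mul _)
      s₀ (Set.left_mem_Icc.2 h2.le) T (Set.right_mem_Icc.2 h2.le) h2.le
    have g3 : Real.exp (-(K₁ * s₀)) * β s₀ ≤ C₀ * s₀ := by
      have g4 : Real.exp (-(K₁ * s₀)) ≤ 1 := by
        rw [Real.exp_le_one_iff]
        have := mul_nonneg hK0 h1.le
        linarith
      have g5 : 0 ≤ β s₀ := beta_nonneg h y y h1
      calc Real.exp (-(K₁ * s₀)) * β s₀ ≤ 1 * β s₀ := mul_le_mul_of_nonneg_right g4 g5
        _ = β s₀ := one_mul _
        _ ≤ C₀ * s₀ := hsm s₀ h1 h3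
    have hmv' : Real.exp (-(K₁ * T)) * β T - Real.exp (-(K₁ * s₀)) * β s₀ ≤ n * (T - s₀) := hmv
    linarith
  have hlim : Tendsto (fun s₀ : ℝ => C₀ * s₀ + n * (T - s₀)) (𝓝[>] 0) (𝓝 (C₀ * 0 + n * (T - 0))) := by
    have : Continuous (fun s₀ : ℝ => C₀ * s₀ + n * (T - s₀)) := by fun_prop
    exact (this.tendsto 0).mono_left nhdsWithin_le_nhds
  have hfin : Real.exp (-(K₁ * T)) * β T ≤ C₀ * 0 + n * (T - 0) := by
    refine ge_of_tendsto hlim ?_
    have hpos : 0 < min T (1 / (8 * A ^ 2)) := lt_min hT (by positivity)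
    filter_upwards [Ioo_mem_nhdsGT hpos] with s₀ hs₀
    refine key s₀ hs₀.1 (hs₀.2.trans_le (min_le_left _ _)) ?_
    have h5 := (hs₀.2.trans_le (min_le_right _ _)).le
    have h6 : 4 * A ^ 2 * s₀ ≤ 4 * A ^ 2 * (1 / (8 * A ^ 2)) :=
      mul_le_mul_of_nonneg_left h5 (by positivity)
    refine h6.trans (le_of_eq ?_)
    field_simp
    norm_num
  simp only [mul_zero, zero_add, sub_zero] at hfin
  have e1 : β T = Real.exp (K₁ * T) * (Real.exp (-(K₁ * T)) * β T) := by
    rw [← mul_assoc, ← Real.exp_add]; simp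
  have : β T ≤ Real.exp (K₁ * T) * (n * T) := by
    rw [e1]; exact mul_le_mul_of_nonneg_left hfin (Real.exp_pos _).le
  calc β T ≤ Real.exp (K₁ * T) * (n * T) := this
    _ = n * T * Real.exp (K₁ * T) := by ring

end env

end Vale.Agent.P242.H924
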