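import Vale.Agent.P242.H924.E4c
import Vale.Agent.P233.Bd3.B5

/-! P242, A-E4 (helper924): bounds of `u_c = ∑ c_i u_i` for a configuration, and (E4c) for `u_c`. -/

set_option linter.all false

open MeasureTheory Filter Topology Set
open scoped ENNReal NNReal InnerProductSpace

universe u

namespace Vale.Agent.P242.H924

open Vale.Agent.P233 Vale.Agent.P233.RA Vale.Agent.P242.H71 Vale.Agent.P242.H990

section gen

variable {M : Type*} [MeasurableSpace M] {m : Measure M} {C : Calc m} {n : ℕ}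

theorem sum_ae' {ι : Type*} (s : Finset ι) (f : ι → M →ₘ[m] ℝ) :
    ∀ᵐ x ∂m, (∑ i ∈ s, f i) x = ∑ i ∈ s, f i x := by
  classical
  induction s using Finset.induction_on with
  | empty =>
    filter_upwards [zero_ae (M := M) (m := m)] with x hx
    simp [hx]
  | insert a s ha ih =>
    filter_upwards [ih, add_ae (f a) (∑ i ∈ s, f i)] with x h1 h2
    rw [Finset.sum_insert ha, Finset.sum_insert ha, h2, h1]

theorem sum_smul_W (hD : IsDir C) {v : Fin n → M →ₘ[m] ℝ} (hv : ∀ i, v i ∈ C.W) (c : Fin n → ℝ) :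
    ∑ i, c i • v i ∈ C.W := hD.sum_mem _ fun i => hD.smul_mem _ _ (hv i)

/-- `Γ(∑ c_i v_i) ≤ n ∑ c_i² Γ(v_i)` -/
theorem Γ_sum_le (hD : IsDir C) {v : Fin n → M →ₘ[m] ℝ} (hv : ∀ i, v i ∈ C.W) (c : Fin n → ℝ) :
    ∀ᵐ x ∂m, C.Γ (∑ i, c i • v i) (∑ i, c i • v i) x ≤ n * ∑ i, c i ^ 2 * C.Γ (v i) (v i) x := by
  have h1 : ∀ i, c i • v i ∈ C.W := fun i => hD.smul_mem _ _ (hv i)
  have e : C.Γ (∑ i, c i • v i) (∑ i, c i • v i) = ∑ i, ∑ j, C.Γ (c i • v i) (c j • v j) := by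
    rw [hD.Γ_sum_left _ h1 (hD.sum_mem _ h1)]
    exact Finset.sum_congr rfl fun i _ => hD.Γ_sum_right _ h1 (h1 i)
  have h3 : ∀ᵐ x ∂m, ∀ i j, C.Γ (c i • v i) (c j • v j) x = c i * c j * C.Γ (v i) (v j) x := by
    refine ae_all_iff.2 fun i => ae_all_iff.2 fun j => ?_
    rw [hD.smul_left _ _ (hv i) _ (h1 j), hD.Γ_smul_right _ (hv i) (hv j), smul_smul]
    exact smul_ae _ _
  have h4 : ∀ᵐ x ∂m, ∀ i, (∑ j, C.Γ (c i • v i) (c j • v j)) x
      = ∑ j, C.Γ (c i • v i) (c j • v j) x := ae_all_iff.2 fun i => sum_ae' _ _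
  have h5 : ∀ᵐ x ∂m, ∀ i j, C.Γ (v i) (v j) x ^ 2 ≤ C.Γ (v i) (v i) x * C.Γ (v j) (v j) x :=
    ae_all_iff.2 fun i => ae_all_iff.2 fun j => hD.Γ_cs_ae (hv i) (hv j)
  have h6 : ∀ᵐ x ∂m, ∀ i, 0 ≤ C.Γ (v i) (v i) x := ae_all_iff.2 fun i => hD.Γ_nonneg_ae (hv i)
  rw [e]
  filter_upwards [sum_ae' Finset.univ fun i => ∑ j, C.Γ (c i • v i) (c j • v j), h3, h4, h5, h6]
    with x a1 a2 a3 a4 a5
  rw [a1]
  have key : ∀ i j, c i * c j * C.Γ (v i) (v j) x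
      ≤ 2⁻¹ * (c i ^ 2 * C.Γ (v i) (v i) x) + 2⁻¹ * (c j ^ 2 * C.Γ (v j) (v j) x) := by
    intro i j
    have hP : 0 ≤ c i ^ 2 * C.Γ (v i) (v i) x := mul_nonneg (sq_nonneg _) (a5 i)
    have hQ : 0 ≤ c j ^ 2 * C.Γ (v j) (v j) x := mul_nonneg (sq_nonneg _) (a5 j)
    refine (le_abs_self _).trans (abs_le_of_sq_le_sq ?_ (by linarith))
    have h7 : (c i * c j * C.Γ (v i) (v j) x) ^ 2
        ≤ (c i ^ 2 * C.Γ (v i) (v i) x) * (c j ^ 2 * C.Γ (v j) (v j) x) := by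
      have := mul_le_mul_of_nonneg_left (a4 i j) (show 0 ≤ (c i * c j) ^ 2 from sq_nonneg _)
      calc (c i * c j * C.Γ (v i) (v j) x) ^ 2 = (c i * c j) ^ 2 * C.Γ (v i) (v j) x ^ 2 := by ring
        _ ≤ (c i * c j) ^ 2 * (C.Γ (v i) (v i) x * C.Γ (v j) (v j) x) := this
        _ = _ := by ring
    nlinarith [sq_nonneg (c i ^ 2 * C.Γ (v i) (v i) x - c j ^ 2 * C.Γ (v j) (v j) x)]
  calc ∑ i, (∑ j, C.Γ (c i • v i) (c j • v j)) x
      = ∑ i, ∑ j, c i * c j * C.Γ (v i) (v j) x := by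
        refine Finset.sum_congr rfl fun i _ => ?_
        rw [a3 i]
        exact Finset.sum_congr rfl fun j _ => a2 i j
    _ ≤ ∑ i : Fin n, ∑ j : Fin n, (2⁻¹ * (c i ^ 2 * C.Γ (v i) (v i) x)
          + 2⁻¹ * (c j ^ 2 * C.Γ (v j) (v j) x)) :=
        Finset.sum_le_sum fun i _ => Finset.sum_le_sum fun j _ => key i j
    _ = n * ∑ i, c i ^ 2 * C.Γ (v i) (v i) x := by
        simp only [Finset.sum_add_distrib, Finset.sum_const, Finset.card_univ, Fintype.card_fin,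
          nsmul_eq_mul, ← Finset.mul_sum]
        ring

/-- `(∑ c_i v_i)² ≤ n ∑ c_i² v_i²` -/
theorem sq_sum_le (v : Fin n → M →ₘ[m] ℝ) (c : Fin n → ℝ) :
    ∀ᵐ x ∂m, ((∑ i, c i • v i) ^ 2 : M →ₘ[m] ℝ) x ≤ n * ∑ i, c i ^ 2 * v i x ^ 2 := by
  have h1 : ∀ᵐ x ∂m, ∀ i, (c i • v i) x = c i * v i x := ae_all_iff.2 fun i => smul_ae _ _
  filter_upwards [sq_ae (∑ i, c i • v i), sum_ae' Finset.univ fun i => c i • v i, h1]
    with x a1 a2 a3
  rw [a1, a2]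
  have := sq_sum_le_card_mul_sum_sq (s := Finset.univ) (f := fun i => (c i • v i) x)
  simp only [Finset.card_univ, Fintype.card_fin] at this
  refine this.trans (le_of_eq ?_)
  congr 1
  refine Finset.sum_congr rfl fun i _ => ?_
  rw [a3 i, mul_pow]

theorem testI_sum (hC : IsGamma C) {κ : ℝ} (hB : C.BEi κ) {v : Fin n → M →ₘ[m] ℝ}
    (hv : ∀ i, v i ∈ C.TestI) (c : Fin n → ℝ) (s : Finset (Fin n)) :
    ∑ i ∈ s, c i • v i ∈ C.TestI ∧ C.lap (∑ i ∈ s, c i • v i) = ∑ i ∈ s, c i • C.lap (v i) := by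
  classical
  induction s using Finset.induction_on with
  | empty =>
    simp only [Finset.sum_empty]
    refine ⟨hC.testI_zero hB, ?_⟩
    have h1 := hC.lap_smul hB 0 (hC.test_zero hB)
    rwa [zero_smul, zero_smul] at h1
  | insert a s ha ih =>
    rw [Finset.sum_insert ha, Finset.sum_insert ha]
    have h1 := hC.testI_smul hB (c a) (hv a)
    refine ⟨hC.testI_add hB h1 ih.1, ?_⟩
    rw [hC.lap_add hB h1.1 ih.1.1, hC.lap_smul hB (c a) (hv a).1, ih.2]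

end gen

variable {M : Type u} [MetricSpace M] [CompleteSpace M] [SecondCountableTopology M]
  [MeasurableSpace M] [BorelSpace M] {m : Measure M} {n : ℕ} {K A : ℝ} {o : M} {p : ℝ → M → M → ℝ}
  {R Q η ρ : ℝ} {u : Fin n → M →ₘ[m] ℝ} {uu : M → E n}

theorem norm_sq_E (c : E n) : ‖c‖ ^ 2 = ∑ i, c i ^ 2 := by
  rw [EuclideanSpace.norm_sq_eq]
  simp

theorem uc_testI (h : Env m n K o A p) (hu : Cfg m n K o p R Q η ρ u uu) (c : E n) :
    uc u c ∈ (sob m).TestI := by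
  obtain ⟨_, hC, hBE, _, hn⟩ := facts h.hyp
  exact (testI_sum hC (hC.bei hn hBE) hu.test (fun i => c i) Finset.univ).1

theorem uc_lap (h : Env m n K o A p) (hu : Cfg m n K o p R Q η ρ u uu) (c : E n) :
    (sob m).lap (uc u c) = ∑ i, c i • (sob m).lap (u i) := by
  obtain ⟨_, hC, hBE, _, hn⟩ := facts h.hyp
  exact (testI_sum hC (hC.bei hn hBE) hu.test (fun i => c i) Finset.univ).2

/-- `|∇u_c|² ≤ 4 n |c|²` -/
theorem uc_grad (h : Env m n K o A p) (hu : Cfg m n K o p R Q η ρ u uu) (c : E n) :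
    ∀ᵐ x ∂m, (sob m).Γ (uc u c) (uc u c) x ≤ (2 * √n * ‖c‖) ^ 2 := by
  obtain ⟨_, hC, hBE, _, hn⟩ := facts h.hyp
  have hW : ∀ i, u i ∈ (sob m).W := fun i => (hC.test_A (hu.test i).1).1
  filter_upwards [Γ_sum_le hC.toIsDir hW (fun i => c i), ae_all_iff.2 hu.grad] with x h1 h2
  refine h1.trans ?_
  have h3 : ∑ i, c i ^ 2 * (sob m).Γ (u i) (u i) x ≤ ∑ i, c i ^ 2 * 4 :=
    Finset.sum_le_sum fun i _ => mul_le_mul_of_nonneg_left (h2 i) (sq_nonneg _)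
  rw [← Finset.sum_mul, ← norm_sq_E] at h3
  calc (n : ℝ) * ∑ i, c i ^ 2 * (sob m).Γ (u i) (u i) x ≤ n * (‖c‖ ^ 2 * 4) :=
        mul_le_mul_of_nonneg_left h3 hn.le
    _ = (2 * √n * ‖c‖) ^ 2 := by rw [mul_pow, mul_pow, Real.sq_sqrt hn.le]; ring

/-- integration of a pointwise bound by a sum -/
theorem PP_sum_le (h : Env m n K o A p) {s : ℝ} (hs : 0 < s) (x : M) {F : M →ₘ[m] ℝ}
    {G : Fin n → M →ₘ[m] ℝ} (hF : MemLp F 1 m) (hG : ∀ i, MemLp (G i) 1 m) (c : E n) {B : ℝ}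
    (hle : ∀ᵐ z ∂m, F z ≤ n * ∑ i, c i ^ 2 * G i z) (hB : ∀ i, PP m p s x (G i) ≤ B) :
    PP m p s x F ≤ n * (‖c‖ ^ 2 * B) := by
  obtain ⟨_, hC, hBE, _, hn⟩ := facts h.hyp
  have hφ := cen hC h x
  have k1 : MemLp (ph m p s x * F) 1 m := mem_mul_top (hφ.top s hs) hF
  have k2 : ∀ i, MemLp (ph m p s x * G i) 1 m := fun i => mem_mul_top (hφ.top s hs) (hG i)
  have i2 : ∀ i, Integrable (fun z => n * (c i ^ 2 * (ph m p s x * G i) z)) m := fun i =>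
    ((int_of_mem (k2 i)).const_mul _).const_mul _
  have key : PP m p s x F ≤ ∑ i, (n : ℝ) * (c i ^ 2 * PP m p s x (G i)) := by
    unfold PP I
    have e : ∑ i, (n : ℝ) * (c i ^ 2 * ∫ z, (ph m p s x * G i) z ∂m)
        = ∫ z, ∑ i, n * (c i ^ 2 * (ph m p s x * G i) z) ∂m := by
      rw [integral_finset_sum _ fun i _ => i2 i]
      refine Finset.sum_congr rfl fun i _ => ?_
      rw [integral_const_mul, integral_const_mul]
    rw [e]
    refine integral_mono_ae (int_of_mem k1) (integrable_finset_sum _ fun i _ => i2 i) ?_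
    filter_upwards [hle, mul_ae (ph m p s x) F, ae_all_iff.2 fun i => mul_ae (ph m p s x) (G i),
      nonneg_iff_ae.1 (hφ.nonneg s hs)] with z a1 a2 a3 a4
    rw [a2]
    calc ph m p s x z * F z ≤ ph m p s x z * (n * ∑ i, c i ^ 2 * G i z) :=
          mul_le_mul_of_nonneg_left a1 a4
      _ = ∑ i, n * (c i ^ 2 * (ph m p s x * G i) z) := by
          rw [Finset.mul_sum, Finset.mul_sum]
          refine Finset.sum_congr rfl fun i _ => ?_
          rw [a3 i]; ring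
  refine key.trans ?_
  calc ∑ i, (n : ℝ) * (c i ^ 2 * PP m p s x (G i)) ≤ ∑ i, (n : ℝ) * (c i ^ 2 * B) :=
        Finset.sum_le_sum fun i _ => mul_le_mul_of_nonneg_left
          (mul_le_mul_of_nonneg_left (hB i) (sq_nonneg _)) hn.le
    _ = n * (‖c‖ ^ 2 * B) := by rw [norm_sq_E, ← Finset.mul_sum, Finset.sum_mul]

theorem uc_lap1 (h : Env m n K o A p) (hu : Cfg m n K o p R Q η ρ u uu) (c : E n) {x : M}
    (hx : x ∈ Metric.ball o (R * ρ)) {s : ℝ} (hs : 0 < s) (hsQ : s ≤ Q * ρ ^ 2) :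
    PP m p s x ((sob m).lap (uc u c) ^ 2) ≤ (√n * ‖c‖ * (η / ρ)) ^ 2 := by
  obtain ⟨_, hC, hBE, _, hn⟩ := facts h.hyp
  have h2 : ∀ i, MemLp ((sob m).lap (u i)) 2 m := fun i => (hC.test_isLap (hu.test i).1).2.1
  have key := PP_sum_le h hs x (F := (sob m).lap (uc u c) ^ 2)
    (G := fun i => (sob m).lap (u i) ^ 2) (c := c) (B := (η / ρ) ^ 2)
    (mem_sq (hC.test_isLap (uc_testI h hu c).1).2.1) (fun i => mem_sq (h2 i)) (by
      rw [uc_lap h hu c]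
      filter_upwards [sq_sum_le (fun i => (sob m).lap (u i)) (fun i => c i),
        ae_all_iff.2 fun i => sq_ae ((sob m).lap (u i))] with z a1 a2
      simp only [a2]
      exact a1) (fun i => hu.lap1 x hx s hs hsQ i)
  refine key.trans (le_of_eq ?_)
  rw [mul_pow, mul_pow, Real.sq_sqrt hn.le]; ring

theorem uc_lap2 (h : Env m n K o A p) (hu : Cfg m n K o p R Q η ρ u uu) (c : E n) {x : M}
    (hx : x ∈ Metric.ball o (R * ρ)) {s : ℝ} (hs : 0 < s) (hsQ : s ≤ Q * ρ ^ 2) :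
    PP m p s x ((sob m).Γ ((sob m).lap (uc u c)) ((sob m).lap (uc u c)))
      ≤ (√n * ‖c‖ * (η / ρ ^ 2)) ^ 2 := by
  obtain ⟨_, hC, hBE, _, hn⟩ := facts h.hyp
  have h2 : ∀ i, (sob m).lap (u i) ∈ (sob m).W := fun i => hC.test_lap_mem (hu.test i).1
  have key := PP_sum_le h hs x
    (F := (sob m).Γ ((sob m).lap (uc u c)) ((sob m).lap (uc u c)))
    (G := fun i => (sob m).Γ ((sob m).lap (u i)) ((sob m).lap (u i))) (c := c)
    (B := (η / ρ ^ 2) ^ 2)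
    (hC.mem1 _ (hC.test_lap_mem (uc_testI h hu c).1)) (fun i => hC.mem1 _ (h2 i)) (by
      rw [uc_lap h hu c]
      exact Γ_sum_le hC.toIsDir h2 (fun i => c i)) (fun i => hu.lap2 x hx s hs hsQ i)
  refine key.trans (le_of_eq ?_)
  rw [mul_pow, mul_pow, Real.sq_sqrt hn.le]; ring

/-- **(E4c)** for `u_c`, configuration form -/
theorem E4c_cfg (h : Env m n K o A p) (hu : Cfg m n K o p R Q η ρ u uu) (hη : 0 ≤ η) {y : M}
    (hy : y ∈ Metric.ball o (R * ρ)) {t : ℝ} (ht : 0 < t) (htQ : t ≤ Q * ρ ^ 2)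
    (hKt : (|K| + 1) * (2 * t) ≤ 1) (c : E n) :
    |PP m p t y ((sob m).Γ (bb m y t) (uc u c))|
      ≤ 2 * √((4 * t * nu m n K p y (2 * t) y + 28 * Real.exp 3 * n * (|K| + 1) * t ^ 2)
          * (Gm m p u t y c c + 4 * Real.exp 4 * n * η * (t / ρ ^ 2) * ‖c‖ ^ 2))
        + Real.exp 4 * t * (√n * ‖c‖) * (2 * √(2 * Real.exp 5) * (η / ρ)
          + √(4 * Real.exp 3 * n * t) * (η / ρ ^ 2)) := by
  have hρ := hu.ρ_pos
  have hn : (0 : ℝ) < n := (facts h.hyp).npos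
  have key := E4c_env h y ht hKt (uc_testI h hu c) (a := √n * ‖c‖ * (η / ρ))
    (b := √n * ‖c‖ * (η / ρ ^ 2)) (L := 2 * √n * ‖c‖) (by positivity) (by positivity)
    (by positivity) (fun s h1 h2 => uc_lap1 h hu c hy h1 (h2.le.trans htQ))
    (fun s h1 h2 => uc_lap2 h hu c hy h1 (h2.le.trans htQ)) (uc_grad h hu c)
  have e1 : PP m p t y ((sob m).Γ (uc u c) (uc u c))
      + 2 * Real.exp 4 * t * (2 * √n * ‖c‖ * (√n * ‖c‖ * (η / ρ ^ 2)))
      = Gm m p u t y c c + 4 * Real.exp 4 * n * η * (t / ρ ^ 2) * ‖c‖ ^ 2 := by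
    have hs : √(n : ℝ) * √n = n := Real.mul_self_sqrt hn.le
    have : 2 * Real.exp 4 * t * (2 * √n * ‖c‖ * (√n * ‖c‖ * (η / ρ ^ 2)))
        = 4 * Real.exp 4 * (√n * √n) * η * (t / ρ ^ 2) * ‖c‖ ^ 2 := by ring
    rw [this, hs]
    rfl
  rw [e1] at key
  refine key.trans (le_of_eq ?_)
  ring

end Vale.Agent.P242.H924
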