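import Vale.Agent.P242.H924.Uc
import Vale.Agent.P242.H655.E4Def

/-! P242, A-E4 (helper924): values at a point `P_t u_c(y) ≈ ⟨c, uu y⟩` and the final form of (E4c). -/

set_option linter.all false

open MeasureTheory Filter Topology Set Metric
open scoped ENNReal NNReal InnerProductSpace

universe u

namespace Vale.Agent.P242.H924

open Vale.Agent.P233 Vale.Agent.P233.RA Vale.Agent.P242.H71 Vale.Agent.P242.H990

variable {M : Type u} [MetricSpace M] [CompleteSpace M] [SecondCountableTopology M]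
  [MeasurableSpace M] [BorelSpace M] {m : Measure M} {n : ℕ} {K A : ℝ} {o : M} {p : ℝ → M → M → ℝ}
  {R Q η ρ A₀ : ℝ} {u : Fin n → M →ₘ[m] ℝ} {uu : M → E n} {s t : ℝ}

/-- second moment of the heat kernel -/
theorem moment2 (h : Env m n K o A p) (y : M) : ∃ C₀ : ℝ, 0 ≤ C₀ ∧
    ∀ s, 0 < s → 4 * A ^ 2 * s ≤ 1 / 2 → Integrable (fun z => p s y z * dist y z ^ 2) m ∧
      ∫ z, p s y z * dist y z ^ 2 ∂m ≤ C₀ * s := by
  have hA := h.kb.one_le
  have hA0 := h.kb.pos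
  refine ⟨cG n A (4 * A ^ 2) 0 * (cW A 2 * Real.exp (A * 0 ^ 2)) *
    Real.exp (2 * A * dist y o), ?_, ?_⟩
  · have h1 := cG_pos (n := n) (C₀ := 0) hA (show 0 < 4 * A ^ 2 by positivity)
    have h2 := cW_pos (A := A) (N := 2)
    positivity
  intro s hs hs1
  have hs' : 0 < 4 * A ^ 2 * s := by positivity
  have hi : Integrable (fun z => p (4 * A ^ 2 * s) y z * (1 : ℝ)) m := by
    simpa using h.ker.int _ hs' y
  obtain ⟨hw1, hw2⟩ := h.kb.weight (kmeas h.ker) (Γ := 4 * A ^ 2) (C₀ := 0) (s := s)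
    (s' := 4 * A ^ 2 * s) (x := y) (x' := y) hs le_rfl le_rfl hs1 (by simp) (F := fun _ => (1 : ℝ))
    aestronglyMeasurable_const hi 2 0
  have hmass : ∫ z, p (4 * A ^ 2 * s) y z * |(1 : ℝ)| ∂m = 1 := by
    simp only [abs_one, mul_one]
    exact h.ker.mass _ hs' y
  rw [hmass, mul_one] at hw2
  simp only [abs_one, mul_one, zero_mul, Real.exp_zero] at hw2 hw1
  have hss : √s * √s = s := Real.mul_self_sqrt hs.le
  have hs0 : 0 < √s := Real.sqrt_pos.2 hs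
  have hle : ∀ z, p s y z * dist y z ^ 2 ≤ s * ((1 + dist y z / √s) ^ 2 * p s y z) := by
    intro z
    have hp := h.ker.nonneg s hs y z
    have hd : 0 ≤ dist y z := dist_nonneg
    have e1 : s * (1 + dist y z / √s) ^ 2 = (√s + dist y z) ^ 2 := by
      have : (1 + dist y z / √s) = (√s + dist y z) / √s := by field_simp
      rw [this, div_pow, sq (√s), hss]
      field_simp
    have h3 : dist y z ^ 2 ≤ s * (1 + dist y z / √s) ^ 2 := by rw [e1]; nlinarith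
    calc p s y z * dist y z ^ 2 ≤ p s y z * (s * (1 + dist y z / √s) ^ 2) :=
          mul_le_mul_of_nonneg_left h3 hp
      _ = s * ((1 + dist y z / √s) ^ 2 * p s y z) := by ring
  have hI : Integrable (fun z => p s y z * dist y z ^ 2) m := by
    refine (hw1.const_mul s).mono' ?_ (Eventually.of_forall fun z => ?_)
    · exact (ph_meas h.ker hs y).mul (by fun_prop)
    · rw [Real.norm_eq_abs, abs_of_nonneg (mul_nonneg (h.ker.nonneg s hs y z) (sq_nonneg _))]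
      exact hle z
  refine ⟨hI, (integral_mono hI (hw1.const_mul s) hle).trans ?_⟩
  rw [integral_const_mul, mul_comm _ s]
  exact mul_le_mul_of_nonneg_left hw2 hs.le

/-- the heat flow of a bounded `L²` function converges at a point of continuity -/
theorem PP_tendsto (h : Env m n K o A p) (y : M) {f : M →ₘ[m] ℝ} {g : M → ℝ} (hf2 : MemLp f 2 m)
    (hfg : ∀ᵐ x ∂m, f x = g x) (hg : ContinuousAt g y) {B : ℝ} (hB : ∀ᵐ x ∂m, |f x| ≤ B) :
    Tendsto (fun s => PP m p s y f) (𝓝[>] 0) (𝓝 (g y)) := by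
  obtain ⟨C₀, hC₀, hmom⟩ := moment2 h y
  have hA0 := h.kb.pos
  rw [Metric.tendsto_nhds]
  intro ε hε
  obtain ⟨δ, hδ, hδ'⟩ := Metric.continuousAt_iff.1 hg (ε / 2) (by positivity)
  have hbig : 0 ≤ |B| + |g y| := by positivity
  have hpos : 0 < min (1 / (8 * A ^ 2)) (ε * δ ^ 2 / (4 * ((|B| + |g y|) * C₀ + 1))) :=
    lt_min (by positivity) (by positivity)
  filter_upwards [Ioo_mem_nhdsGT hpos] with s hs
  obtain ⟨hs0, hs1⟩ := hs
  have hs2 : 4 * A ^ 2 * s ≤ 1 / 2 := by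
    have h5 := (hs1.trans_le (min_le_left _ _)).le
    have h6 : 4 * A ^ 2 * s ≤ 4 * A ^ 2 * (1 / (8 * A ^ 2)) :=
      mul_le_mul_of_nonneg_left h5 (by positivity)
    refine h6.trans (le_of_eq ?_)
    field_simp
    norm_num
  have hs3 := (hs1.trans_le (min_le_right _ _)).le
  obtain ⟨i2, hm2⟩ := hmom s hs0 hs2
  have i1 := pt_int h.ker hs0 y hf2
  have e1 : PP m p s y f - g y = ∫ z, p s y z * (f z - g y) ∂m := by
    unfold PP
    rw [I_ph_mul h.ker hs0 y]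
    have e : ∀ z, p s y z * (f z - g y) = p s y z * f z - g y * p s y z := by intro z; ring
    simp only [e]
    rw [integral_sub i1 ((h.ker.int s hs0 y).const_mul _), integral_const_mul,
      h.ker.mass s hs0 y, mul_one]
    rfl
  have i3 : Integrable (fun z => p s y z * (f z - g y)) m := by
    refine (i1.sub ((h.ker.int s hs0 y).const_mul (g y))).congr
      (Eventually.of_forall fun z => ?_)
    simp only [Pi.sub_apply]
    ring
  rw [Real.dist_eq, e1]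
  have hle : ∀ᵐ z ∂m, |p s y z * (f z - g y)|
      ≤ ε / 2 * p s y z + (|B| + |g y|) / δ ^ 2 * (p s y z * dist y z ^ 2) := by
    filter_upwards [hfg, hB] with z h1 h2
    have hp := h.ker.nonneg s hs0 y z
    rw [abs_mul, abs_of_nonneg hp]
    have key : |f z - g y| ≤ ε / 2 + (|B| + |g y|) / δ ^ 2 * dist y z ^ 2 := by
      rcases lt_or_ge (dist z y) δ with h3 | h3
      · have h4 := (hδ' h3).le
        rw [Real.dist_eq, ← h1] at h4
        have : 0 ≤ (|B| + |g y|) / δ ^ 2 * dist y z ^ 2 := by positivity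
        linarith
      · have h4 : |f z - g y| ≤ |B| + |g y| :=
          (abs_sub _ _).trans (add_le_add (h2.trans (le_abs_self B)) le_rfl)
        have h5 : δ ^ 2 ≤ dist y z ^ 2 := by
          rw [dist_comm y z]
          exact pow_le_pow_left₀ hδ.le h3 2
        have h6 : |B| + |g y| ≤ (|B| + |g y|) / δ ^ 2 * dist y z ^ 2 := by
          rw [div_mul_eq_mul_div, le_div_iff₀ (by positivity)]
          exact mul_le_mul_of_nonneg_left h5 hbig
        linarith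
    calc p s y z * |f z - g y| ≤ p s y z * (ε / 2 + (|B| + |g y|) / δ ^ 2 * dist y z ^ 2) :=
          mul_le_mul_of_nonneg_left key hp
      _ = _ := by ring
  have i4 : Integrable (fun z => ε / 2 * p s y z
      + (|B| + |g y|) / δ ^ 2 * (p s y z * dist y z ^ 2)) m :=
    ((h.ker.int s hs0 y).const_mul _).add (i2.const_mul _)
  calc |∫ z, p s y z * (f z - g y) ∂m| ≤ ∫ z, |p s y z * (f z - g y)| ∂m :=
        abs_integral_le_integral_abs
    _ ≤ ∫ z, (ε / 2 * p s y z + (|B| + |g y|) / δ ^ 2 * (p s y z * dist y z ^ 2)) ∂m :=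
        integral_mono_ae i3.abs i4 hle
    _ = ε / 2 + (|B| + |g y|) / δ ^ 2 * ∫ z, p s y z * dist y z ^ 2 ∂m := by
        rw [integral_add ((h.ker.int s hs0 y).const_mul _) (i2.const_mul _), integral_const_mul,
          integral_const_mul, h.ker.mass s hs0 y, mul_one]
    _ ≤ ε / 2 + (|B| + |g y|) / δ ^ 2 * (C₀ * s) := by gcongr
    _ < ε := by
        have h7 : (|B| + |g y|) / δ ^ 2 * (C₀ * s) ≤ ε / 4 := by
          have h8 : (|B| + |g y|) * C₀ * s ≤ ε * δ ^ 2 / 4 := by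
            have h9 : s * ((|B| + |g y|) * C₀ + 1) ≤ ε * δ ^ 2 / 4 := by
              have := (le_div_iff₀ (by positivity)).1 hs3
              linarith
            have : 0 < s := hs0
            nlinarith
          rw [div_mul_eq_mul_div, div_le_iff₀ (by positivity)]
          linarith
        linarith

theorem exists_bd {f : M →ₘ[m] ℝ} (hf : MemLp f ∞ m) : ∃ B : ℝ, ∀ᵐ x ∂m, |f x| ≤ B := by
  refine ⟨(eLpNorm f ∞ m).toReal, ?_⟩
  filter_upwards [ae_le_eLpNormEssSup (f := f) (μ := m)] with x hx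
  rw [← eLpNorm_exponent_top] at hx
  have := ENNReal.toReal_mono hf.2.ne hx
  simpa using this

/-- `(P_s F (y))² ≤ P_s F² (y)` -/
theorem PP_jensen (h : Env m n K o A p) (hs : 0 < s) (y : M) {F : M →ₘ[m] ℝ} (hF : MemLp F 2 m) :
    PP m p s y F ^ 2 ≤ PP m p s y (F ^ 2) := by
  obtain ⟨_, hC, _, _, _⟩ := facts h.hyp
  have hφ := cen hC h y
  have h1 : Integrable (fun z => p s y z * F z ^ 2) m := by
    have := (int_ph_mul h.ker hs y).1 (mem_mul_top (hφ.top s hs) (mem_sq hF))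
    refine this.congr ?_
    filter_upwards [sq_ae F] with z hz
    rw [hz]
  have h2 := pt_jensen h.ker hs y hF.1 h1
  unfold PP
  rw [I_ph_mul h.ker hs y, I_ph_mul h.ker hs y, pt_congr h.ker (sq_ae F) s y]
  exact h2

/-- `P_t f(y) = f(y) + O(t a)` if `P_s (Δf)² (y) ≤ a²` for the times `s ≤ t` -/
theorem PP_sub_le (h : Env m n K o A p) (y : M) {f : M →ₘ[m] ℝ} {g : M → ℝ} (hf : f ∈ (sob m).Test)
    (hfg : ∀ᵐ x ∂m, f x = g x) (hg : ContinuousAt g y) (ht : 0 < t) {a : ℝ} (ha : 0 ≤ a)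
    (hl : ∀ s, 0 < s → s < t → PP m p s y ((sob m).lap f ^ 2) ≤ a ^ 2) :
    |PP m p t y f - g y| ≤ t * a := by
  obtain ⟨_, hC, _, _, _⟩ := facts h.hyp
  have hf2 := hC.memLp _ (hC.test_A hf).1
  have hlf := hC.test_isLap hf
  obtain ⟨B, hB⟩ := exists_bd (hC.test_A hf).2
  have hlim := PP_tendsto h y hf2 hfg hg hB
  have hd : ∀ s, 0 < s → HasDerivAt (fun r => PP m p r y f) (I (ph m p s y * (sob m).lap f)) s := by
    intro s hs
    have := hasDerivAt_ph hC.toIsDir h.ker hs y hf2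
    rwa [← I_ph_lap hC.toIsDir h.ker hs y hlf] at this
  have hφ := cen hC h y
  have hbd : ∀ s, 0 < s → s < t → |I (ph m p s y * (sob m).lap f)| ≤ a := by
    intro s hs hst
    exact abs_le_of_sq_le_sq ((PP_jensen h hs y hlf.2.1).trans (hl s hs hst)) ha
  have key : ∀ s₀, 0 < s₀ → s₀ < t → |PP m p t y f - PP m p s₀ y f| ≤ a * t := by
    intro s₀ h1 h2
    have h3 : ∀ r, r ∈ Set.Ioo 0 t → ‖PP m p r y f - PP m p s₀ y f‖ ≤ a * ‖r - s₀‖ := fun r hr =>
      Convex.norm_image_sub_le_of_norm_hasDerivWithin_le (f := fun r => PP m p r y f)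
      (f' := fun s => I (ph m p s y * (sob m).lap f)) (s := Set.Ioo 0 t) (C := a)
      (fun x hx => (hd x hx.1).hasDerivWithinAt) (fun x hx => hbd x hx.1 hx.2)
      (convex_Ioo 0 t) ⟨h1, h2⟩ hr
    have hc : ContinuousAt (fun r => PP m p r y f) t := (hd t ht).continuousAt
    have hc' : Tendsto (fun r => PP m p r y f) (𝓝[<] t) (𝓝 (PP m p t y f)) :=
      hc.tendsto.mono_left nhdsWithin_le_nhds
    have h4 : Tendsto (fun r => |PP m p r y f - PP m p s₀ y f|) (𝓝[<] t)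
        (𝓝 |PP m p t y f - PP m p s₀ y f|) := (hc'.sub tendsto_const_nhds).abs
    refine le_of_tendsto h4 ?_
    filter_upwards [Ioo_mem_nhdsLT h2] with r hr
    have h5 := h3 r ⟨h1.trans hr.1, hr.2⟩
    simp only [Real.norm_eq_abs] at h5
    refine h5.trans (mul_le_mul_of_nonneg_left ?_ ha)
    rw [abs_of_nonneg (by linarith [hr.1])]
    linarith [hr.2]
  have h6 : Tendsto (fun s₀ => |PP m p t y f - PP m p s₀ y f|) (𝓝[>] 0)
      (𝓝 |PP m p t y f - g y|) := (tendsto_const_nhds.sub hlim).abs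
  have h7 : |PP m p t y f - g y| ≤ a * t := by
    refine le_of_tendsto h6 ?_
    filter_upwards [Ioo_mem_nhdsGT ht] with s₀ hs₀
    exact key s₀ hs₀.1 hs₀.2
  linarith

theorem uc_rep (hu : Cfg m n K o p R Q η ρ u uu) (c : E n) :
    ∀ᵐ x ∂m, uc u c x = ⟪c, uu x⟫_ℝ := by
  have h1 : ∀ s : Finset (Fin n), ∀ᵐ x ∂m,
      (∑ i ∈ s, c i • u i : M →ₘ[m] ℝ) x = ∑ i ∈ s, c i * uu x i := by
    classical
    intro s
    induction s using Finset.induction_on with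
    | empty =>
      simp only [Finset.sum_empty]
      exact AEEqFun.coeFn_zero
    | insert a s ha ih =>
      rw [Finset.sum_insert ha]
      filter_upwards [add_ae (c a • u a) (∑ i ∈ s, c i • u i), smul_ae (u a) (c a), ih, hu.rep a]
        with x a1 a2 a3 a4
      rw [a1, a2, a3, a4, Finset.sum_insert ha]
  filter_upwards [h1 Finset.univ] with x hx
  unfold uc
  rw [hx, PiLp.inner_apply]
  refine Finset.sum_congr rfl fun i _ => ?_
  simp [mul_comm]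

/-- **value at a point**: `|P_t u_c(y) - ⟨c, uu y⟩| ≤ t √n |c| η / ρ` -/
theorem uc_val (h : Env m n K o A p) (hu : Cfg m n K o p R Q η ρ u uu) (hη : 0 ≤ η) {y : M}
    (hy : y ∈ Metric.ball o (R * ρ)) (ht : 0 < t) (htQ : t ≤ Q * ρ ^ 2) (c : E n) :
    |PP m p t y (uc u c) - ⟪c, uu y⟫_ℝ| ≤ t * (√n * ‖c‖ * (η / ρ)) := by
  have hρ := hu.ρ_pos
  refine PP_sub_le h y (g := fun x => ⟪c, uu x⟫_ℝ) (uc_testI h hu c).1 (uc_rep hu c)
    (continuous_const.inner hu.cont).continuousAt ht (by positivity) fun s h1 h2 => ?_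
  exact uc_lap1 h hu c hy h1 (h2.le.trans htQ)

/-- `A₀ (t/ρ²)^{1/8} ≤ D_t(y)` -/
theorem le_Dt (h : Env m n K o A p) (y : M) (ht : 0 < t) (htQ : t ≤ Q * ρ ^ 2) :
    A₀ * (t / ρ ^ 2) ^ (1 / 8 : ℝ) ≤ Dt m n K p Q A₀ ρ t y := by
  unfold Dt
  have : 0 ≤ ∫ s in t..Q * ρ ^ 2, (t / s) ^ (1 / 8 : ℝ) * (nu m n K p y s y / s) := by
    refine intervalIntegral.integral_nonneg htQ fun s hs => ?_
    have hs0 : 0 < s := ht.trans_le hs.1
    have := nu_nonneg h y y hs0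
    positivity
  linarith

section scal

/-- scalar step -/
theorem tail_le {τ x G D A₀ η r : ℝ} (hτ : 0 < τ) (hτ1 : τ ≤ 1) (hx : 0 ≤ x) (hA : 0 ≤ A₀)
    (hη : 0 ≤ η) (hη1 : η ^ 2 ≤ A₀) (hD : A₀ * τ ^ (1 / 8 : ℝ) ≤ D)
    (hG : τ ^ (1 / 8 : ℝ) * x ^ 2 ≤ 2 * G) (hr : r ^ 2 ≤ τ) :
    η * (r * x) ≤ √2 * (√D * √G) := by
  have h8 : τ ≤ τ ^ (1 / 8 : ℝ) := by
    calc τ = τ ^ (1 : ℝ) := (Real.rpow_one τ).symm
      _ ≤ τ ^ (1 / 8 : ℝ) := Real.rpow_le_rpow_of_exponent_ge hτ hτ1 (by norm_num)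
  have h0 : 0 < τ ^ (1 / 8 : ℝ) := Real.rpow_pos_of_pos hτ _
  have hD0 : 0 ≤ D := (mul_nonneg hA h0.le).trans hD
  have hG0 : 0 ≤ G := by
    have : 0 ≤ τ ^ (1 / 8 : ℝ) * x ^ 2 := by positivity
    linarith
  have h81 : τ ^ (1 / 8 : ℝ) ≤ 1 := Real.rpow_le_one hτ.le hτ1 (by norm_num)
  have e1 : √2 * (√D * √G) = √(D * (2 * G)) := by
    rw [Real.sqrt_mul hD0, Real.sqrt_mul (by norm_num : (0 : ℝ) ≤ 2)]
    ring
  rw [e1]
  refine Real.le_sqrt_of_sq_le ?_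
  calc (η * (r * x)) ^ 2 = η ^ 2 * (r ^ 2 * x ^ 2) := by ring
    _ ≤ A₀ * ((τ ^ (1 / 8 : ℝ) * τ ^ (1 / 8 : ℝ)) * x ^ 2) := by
        have h1 : r ^ 2 ≤ τ ^ (1 / 8 : ℝ) * τ ^ (1 / 8 : ℝ) := by
          refine hr.trans ?_
          have : τ = τ ^ (1 / 2 : ℝ) * τ ^ (1 / 2 : ℝ) := by
            rw [← Real.rpow_add hτ]; norm_num
          rw [this]
          have h2 : τ ^ (1 / 2 : ℝ) ≤ τ ^ (1 / 8 : ℝ) :=
            Real.rpow_le_rpow_of_exponent_ge hτ hτ1 (by norm_num)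
          have h3 : 0 ≤ τ ^ (1 / 2 : ℝ) := (Real.rpow_pos_of_pos hτ _).le
          calc τ ^ (1 / 2 : ℝ) * τ ^ (1 / 2 : ℝ) ≤ τ ^ (1 / 8 : ℝ) * τ ^ (1 / 8 : ℝ) :=
                mul_le_mul h2 h2 h3 h0.le
            _ = _ := by rw [← this]
        exact mul_le_mul hη1 (mul_le_mul_of_nonneg_right h1 (sq_nonneg x)) (by positivity) hA
    _ = (A₀ * τ ^ (1 / 8 : ℝ)) * (τ ^ (1 / 8 : ℝ) * x ^ 2) := by ring
    _ ≤ D * (2 * G) := mul_le_mul hD hG (by positivity) hD0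

end scal

/-- the constant of (E4c) -/
noncomputable def cF (n : ℕ) (B : ℝ) : ℝ :=
  2 * √((4 * B + 1) * (1 + 8 * Real.exp 4 * n))
    + √2 * (Real.exp 4 * √n * (2 * √(2 * Real.exp 5) + √(4 * Real.exp 3 * n)))

theorem cF_nonneg (n : ℕ) (B : ℝ) : 0 ≤ cF n B := by unfold cF; positivity

/-- **(E4c), final form**: `|P_t Γ(b_{y,t}, u_c) (y)| ≤ C √t √D_t(y) √G_t(y)(c,c)` -/
theorem E4c_final (h : Env m n K o A p) (hu : Cfg m n K o p R Q η ρ u uu) (hη : 0 ≤ η)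
    (hη1 : η ≤ 1) (hηA : η ^ 2 ≤ A₀) {B : ℝ} (hB : 0 ≤ B)
    (hρA : 28 * Real.exp 3 * n * (|K| + 1) * ρ ^ 2 ≤ A₀) {y : M}
    (hy : y ∈ Metric.ball o (R * ρ)) (ht : 0 < t) (htρ : t ≤ ρ ^ 2) (htQ : t ≤ Q * ρ ^ 2)
    (hKt : (|K| + 1) * (2 * t) ≤ 1)
    (hν : nu m n K p y (2 * t) y ≤ B * Dt m n K p Q A₀ ρ t y) (c : E n)
    (hG : (t / ρ ^ 2) ^ (1 / 8 : ℝ) * ‖c‖ ^ 2 ≤ 2 * Gm m p u t y c c) :
    |PP m p t y ((sob m).Γ (bb m y t) (uc u c))|
      ≤ cF n B * √t * (√(Dt m n K p Q A₀ ρ t y) * √(Gm m p u t y c c)) := by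
  have hρ := hu.ρ_pos
  have hρ2 : 0 < ρ ^ 2 := by positivity
  have hA : 0 ≤ A₀ := (sq_nonneg η).trans hηA
  have key := E4c_cfg h hu hη hy ht htQ hKt c
  have hDA := le_Dt (A₀ := A₀) h y ht htQ
  set D := Dt m n K p Q A₀ ρ t y with hDdef
  set G := Gm m p u t y c c with hGdef
  set τ := t / ρ ^ 2 with hτdef
  have hτ : 0 < τ := div_pos ht hρ2
  have hτ1 : τ ≤ 1 := (div_le_one hρ2).2 htρ
  have et : t = τ * ρ ^ 2 := by rw [hτdef]; field_simp
  have h8 : τ ≤ τ ^ (1 / 8 : ℝ) := by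
    calc τ = τ ^ (1 : ℝ) := (Real.rpow_one τ).symm
      _ ≤ τ ^ (1 / 8 : ℝ) := Real.rpow_le_rpow_of_exponent_ge hτ hτ1 (by norm_num)
  have h0 : 0 < τ ^ (1 / 8 : ℝ) := Real.rpow_pos_of_pos hτ _
  have hD0 : 0 ≤ D := (mul_nonneg hA h0.le).trans hDA
  have hc0 : 0 ≤ ‖c‖ := norm_nonneg c
  have hG0 : 0 ≤ G := by
    have : 0 ≤ τ ^ (1 / 8 : ℝ) * ‖c‖ ^ 2 := by positivity
    linarith
  have hn : (0 : ℝ) ≤ n := Nat.cast_nonneg n
  -- first term
  have f1 : 4 * t * nu m n K p y (2 * t) y + 28 * Real.exp 3 * n * (|K| + 1) * t ^ 2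
      ≤ (4 * B + 1) * (t * D) := by
    have g1 : 4 * t * nu m n K p y (2 * t) y ≤ 4 * t * (B * D) :=
      mul_le_mul_of_nonneg_left hν (by positivity)
    have g2 : 28 * Real.exp 3 * n * (|K| + 1) * t ^ 2 ≤ t * D := by
      calc 28 * Real.exp 3 * n * (|K| + 1) * t ^ 2
          = t * (τ * (28 * Real.exp 3 * n * (|K| + 1) * ρ ^ 2)) := by
            rw [sq t]; nth_rewrite 2 [et]; ring
        _ ≤ t * (τ ^ (1 / 8 : ℝ) * A₀) := by
            refine mul_le_mul_of_nonneg_left ?_ ht.le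
            exact mul_le_mul h8 hρA (by positivity) h0.le
        _ ≤ t * D := mul_le_mul_of_nonneg_left (by linarith) ht.le
    linarith
  have f2 : G + 4 * Real.exp 4 * n * η * τ * ‖c‖ ^ 2 ≤ (1 + 8 * Real.exp 4 * n) * G := by
    have g1 : η * (τ * ‖c‖ ^ 2) ≤ 1 * (2 * G) := by
      refine mul_le_mul hη1 ?_ (by positivity) zero_le_one
      exact (mul_le_mul_of_nonneg_right h8 (sq_nonneg _)).trans hG
    have g2 := mul_le_mul_of_nonneg_left g1 (show 0 ≤ 4 * Real.exp 4 * n by positivity)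
    calc G + 4 * Real.exp 4 * n * η * τ * ‖c‖ ^ 2
        = G + 4 * Real.exp 4 * n * (η * (τ * ‖c‖ ^ 2)) := by ring
      _ ≤ G + 4 * Real.exp 4 * n * (1 * (2 * G)) := by linarith
      _ = _ := by ring
  have f3 : √((4 * t * nu m n K p y (2 * t) y + 28 * Real.exp 3 * n * (|K| + 1) * t ^ 2)
      * (G + 4 * Real.exp 4 * n * η * τ * ‖c‖ ^ 2))
      ≤ √((4 * B + 1) * (1 + 8 * Real.exp 4 * n)) * (√t * (√D * √G)) := by
    have g0 : 0 ≤ G + 4 * Real.exp 4 * n * η * τ * ‖c‖ ^ 2 := by positivity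
    have g1 := mul_le_mul f1 f2 g0 (by positivity)
    refine (Real.sqrt_le_sqrt g1).trans (le_of_eq ?_)
    rw [← Real.sqrt_mul hD0, ← Real.sqrt_mul ht.le, ← Real.sqrt_mul (by positivity)]
    congr 1
    ring
  -- second term
  have hst : √t * √t = t := Real.mul_self_sqrt ht.le
  have hs0 : 0 < √t := Real.sqrt_pos.2 ht
  have hrr : (√t / ρ) ^ 2 ≤ τ := by
    rw [div_pow, Real.sq_sqrt ht.le]
  have t1 := tail_le (x := ‖c‖) (r := √t / ρ) hτ hτ1 hc0 hA hη hηA hDA hG hrr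
  have hr2 : √t / ρ ≤ 1 := by
    have : (√t / ρ) ^ 2 ≤ 1 := hrr.trans hτ1
    exact (sq_le_one_iff₀ (by positivity)).1 this
  have f4 : Real.exp 4 * t * (√n * ‖c‖) * (2 * √(2 * Real.exp 5) * (η / ρ)
      + √(4 * Real.exp 3 * n * t) * (η / ρ ^ 2))
      ≤ √2 * (Real.exp 4 * √n * (2 * √(2 * Real.exp 5) + √(4 * Real.exp 3 * n)))
        * (√t * (√D * √G)) := by
    have e1 : √(4 * Real.exp 3 * n * t) = √(4 * Real.exp 3 * n) * √t :=
      Real.sqrt_mul (by positivity) t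
    have e2 : Real.exp 4 * t * (√n * ‖c‖) * (2 * √(2 * Real.exp 5) * (η / ρ)
        + √(4 * Real.exp 3 * n * t) * (η / ρ ^ 2))
        = Real.exp 4 * √n * (2 * √(2 * Real.exp 5) + √(4 * Real.exp 3 * n) * (√t / ρ))
          * (√t * (η * (√t / ρ * ‖c‖))) := by
      rw [e1]
      nth_rewrite 1 [← hst]
      field_simp
    rw [e2]
    calc Real.exp 4 * √n * (2 * √(2 * Real.exp 5) + √(4 * Real.exp 3 * n) * (√t / ρ))
          * (√t * (η * (√t / ρ * ‖c‖)))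
        ≤ Real.exp 4 * √n * (2 * √(2 * Real.exp 5) + √(4 * Real.exp 3 * n) * 1)
          * (√t * (√2 * (√D * √G))) := by
          gcongr
      _ = _ := by ring
  unfold cF
  calc |PP m p t y ((sob m).Γ (bb m y t) (uc u c))| ≤ _ := key
    _ ≤ 2 * (√((4 * B + 1) * (1 + 8 * Real.exp 4 * n)) * (√t * (√D * √G)))
        + √2 * (Real.exp 4 * √n * (2 * √(2 * Real.exp 5) + √(4 * Real.exp 3 * n)))
          * (√t * (√D * √G)) := add_le_add (mul_le_mul_of_nonneg_left f3 (by norm_num)) f4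
    _ = _ := by ring

/-- the deviation of the value at a point in terms of `D` and `G` -/
theorem uc_val_final (h : Env m n K o A p) (hu : Cfg m n K o p R Q η ρ u uu) (hη : 0 ≤ η)
    (hηA : η ^ 2 ≤ A₀) {y : M} (hy : y ∈ Metric.ball o (R * ρ)) (ht : 0 < t) (htρ : t ≤ ρ ^ 2)
    (htQ : t ≤ Q * ρ ^ 2) (c : E n)
    (hG : (t / ρ ^ 2) ^ (1 / 8 : ℝ) * ‖c‖ ^ 2 ≤ 2 * Gm m p u t y c c) :
    |PP m p t y (uc u c) - ⟪c, uu y⟫_ℝ|
      ≤ √2 * √n * √t * (√(Dt m n K p Q A₀ ρ t y) * √(Gm m p u t y c c)) := by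
  have hρ := hu.ρ_pos
  have hρ2 : 0 < ρ ^ 2 := by positivity
  have hA : 0 ≤ A₀ := (sq_nonneg η).trans hηA
  have key := uc_val h hu hη hy ht htQ c
  have hDA := le_Dt (A₀ := A₀) h y ht htQ
  have hτ : 0 < t / ρ ^ 2 := div_pos ht hρ2
  have hτ1 : t / ρ ^ 2 ≤ 1 := (div_le_one hρ2).2 htρ
  have hrr : (√t / ρ) ^ 2 ≤ t / ρ ^ 2 := by
    rw [div_pow, Real.sq_sqrt ht.le]
  have t1 := tail_le (x := ‖c‖) (r := √t / ρ) hτ hτ1 (norm_nonneg c) hA hη hηA hDA hG hrr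
  have hst : √t * √t = t := Real.mul_self_sqrt ht.le
  refine key.trans ?_
  calc t * (√n * ‖c‖ * (η / ρ)) = √n * √t * (η * (√t / ρ * ‖c‖)) := by
        nth_rewrite 1 [← hst]
        field_simp
    _ ≤ √n * √t * (√2 * (√(Dt m n K p Q A₀ ρ t y) * √(Gm m p u t y c c))) := by gcongr
    _ = _ := by ring

end Vale.Agent.P242.H924
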