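import Vale.Agent.P242.H924.Flow
import Vale.Agent.P242.H542.Gam

/-! P242, A-E4, (E4c): the bound of `P_τ Γ(P_{T-τ} w, u)` at a centre. -/

open MeasureTheory Filter Topology
open scoped ENNReal NNReal InnerProductSpace

namespace Vale.Agent.P242.H924

open Vale.Agent.P233

variable {M : Type*} [MeasurableSpace M] {m : Measure M} {C : Calc m}

/-! ### real lemmas -/

theorem opt_young {a X Y E : ℝ} (h : ∀ l : ℝ, 0 < l → a ≤ l * X + l⁻¹ * Y + E)
    (hX : 0 ≤ X) (hY : 0 ≤ Y) : a ≤ 2 * Real.sqrt (X * Y) + E := by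
  rcases hX.eq_or_lt with hX0 | hX0
  · have h1 : Tendsto (fun l : ℝ => l * X + l⁻¹ * Y + E) atTop (𝓝 (0 * Y + E)) := by
      have : ∀ l : ℝ, l * X + l⁻¹ * Y + E = l⁻¹ * Y + E := fun l => by rw [← hX0]; ring
      simp only [this]
      exact (tendsto_inv_atTop_zero.mul_const Y).add_const E
    have h2 : a ≤ 0 * Y + E := by
      refine ge_of_tendsto h1 ?_
      filter_upwards [eventually_gt_atTop (0 : ℝ)] with l hl using h l hl
    rw [← hX0]
    simpa using h2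
  · rcases hY.eq_or_lt with hY0 | hY0
    · have h2 : a ≤ E := by
        refine le_of_forall_pos_le_add fun ε hε => ?_
        have := h (ε / X) (by positivity)
        rw [← hY0] at this
        have e : ε / X * X = ε := by field_simp
        rw [e] at this
        linarith
      rw [← hY0]
      simpa using h2
    · have h1 := h (Real.sqrt (Y / X)) (Real.sqrt_pos.2 (by positivity))
      have e1 : Real.sqrt (Y / X) * X = Real.sqrt (X * Y) := by
        rw [Real.sqrt_div hY, Real.sqrt_mul hX]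
        have hs : Real.sqrt X ≠ 0 := (Real.sqrt_pos.2 hX0).ne'
        have hs2 : Real.sqrt X * Real.sqrt X = X := Real.mul_self_sqrt hX
        field_simp
        nlinarith [hs2]
      have e2 : (Real.sqrt (Y / X))⁻¹ * Y = Real.sqrt (X * Y) := by
        rw [Real.sqrt_div hY, Real.sqrt_mul hX, inv_div]
        have hs : Real.sqrt Y ≠ 0 := (Real.sqrt_pos.2 hY0).ne'
        have hs2 : Real.sqrt Y * Real.sqrt Y = Y := Real.mul_self_sqrt hY
        field_simp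
        nlinarith [hs2]
      rw [e1, e2] at h1
      linarith

/-- a linear bound in `l` and `l⁻¹` that is nonnegative for all `l` has nonnegative coefficients -/
theorem coeff_nonneg {X Y E : ℝ} (h : ∀ l : ℝ, 0 < l → 0 ≤ l * X + l⁻¹ * Y + E) : 0 ≤ X ∧ 0 ≤ Y := by
  constructor
  · by_contra hX
    push Not at hX
    have h1 : Tendsto (fun l : ℝ => l⁻¹ * Y + E) atTop (𝓝 (0 * Y + E)) :=
      (tendsto_inv_atTop_zero.mul_const Y).add_const E
    have h2 : Tendsto (fun l : ℝ => l * X + (l⁻¹ * Y + E)) atTop atBot :=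
      (tendsto_id.atTop_mul_const_of_neg hX).atBot_add h1
    obtain ⟨l, hl0, hl⟩ := ((eventually_gt_atTop (0 : ℝ)).and
      (h2.eventually (eventually_lt_atBot 0))).exists
    have := h l hl0
    linarith
  · by_contra hY
    push Not at hY
    have h1 : Tendsto (fun l : ℝ => l⁻¹ * X + E) atTop (𝓝 (0 * X + E)) :=
      (tendsto_inv_atTop_zero.mul_const X).add_const E
    have h2 : Tendsto (fun l : ℝ => l * Y + (l⁻¹ * X + E)) atTop atBot :=
      (tendsto_id.atTop_mul_const_of_neg hY).atBot_add h1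
    obtain ⟨l, hl0, hl⟩ := ((eventually_gt_atTop (0 : ℝ)).and
      (h2.eventually (eventually_lt_atBot 0))).exists
    have := h l⁻¹ (inv_pos.2 hl0)
    rw [inv_inv] at this
    linarith

/-! ### the form `QN` -/

section forms

variable {f g u b ζ : M →ₘ[m] ℝ} {κ n : ℝ}

theorem QN_int (hC : IsGamma C) (hf : f ∈ C.Test) (hg : g ∈ C.Test) (hζ : ζ ∈ C.A) :
    MemLp (ζ * (C.lap f * C.lap g)) 1 m :=
  mem_mul_top hζ.2 (mem_mul_22 (hC.test_isLap hf).2.1 (hC.test_isLap hg).2.1)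

theorem QN_nonneg (hC : IsGamma C) (hn : 0 < n) (hB : C.BE κ n) (hf : f ∈ C.Test) (hζ : ζ ∈ C.A)
    (h0 : 0 ≤ ζ) : 0 ≤ QN C κ n f f ζ := by
  have hBi := hC.bei hn hB
  have h1 := hC.bochner_weakN hn hB hf hζ h0
  obtain ⟨n1, n2, n3, n4⟩ := hC.NN_int1 hBi hf hf hζ
  have e : ζ * (C.Γ f (C.lap f) + κ • C.Γ f f + n⁻¹ • C.lap f ^ 2)
      = (2 : ℝ)⁻¹ • (ζ * (C.Γ f (C.lap f) + C.Γ f (C.lap f))) + κ • (ζ * C.Γ f f)
        + n⁻¹ • (ζ * (C.lap f * C.lap f)) := by algebra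
  rw [e, I_add (mem_add (mem_smul _ n2) (mem_smul _ n3)) (mem_smul _ n4),
    I_add (mem_smul _ n2) (mem_smul _ n3), I_smul, I_smul, I_smul] at h1
  unfold QN Calc.NN
  linarith only [h1]

theorem QN_expand (hC : IsGamma C) (hBi : C.BEi κ) (hb : b ∈ C.Test) (hu : u ∈ C.Test)
    (hζ : ζ ∈ C.A) (c : ℝ) :
    QN C κ n (b + c • u) (b + c • u) ζ
      = QN C κ n b b ζ + 2 * c * QN C κ n b u ζ + c ^ 2 * QN C κ n u u ζ := by
  have hcu := hC.test_smul hBi c hu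
  have hbc := hC.test_add hBi hb hcu
  have k1 := QN_int hC hb hb hζ
  have k2 := QN_int hC hb hu hζ
  have k3 := QN_int hC hu hu hζ
  have e1 : C.NN κ (b + c • u) (b + c • u) ζ
      = C.NN κ b b ζ + 2 * c * C.NN κ b u ζ + c ^ 2 * C.NN κ u u ζ := by
    rw [hC.NN_add_left hBi hb hcu hbc hζ, hC.NN_symm hBi hb hbc, hC.NN_add_left hBi hb hcu hb hζ,
      hC.NN_smul_left hBi c hu hbc hζ, hC.NN_symm hBi hu hbc, hC.NN_add_left hBi hb hcu hu hζ,
      hC.NN_smul_left hBi c hu hb hζ, hC.NN_smul_left hBi c hu hu hζ, hC.NN_symm hBi hu hb]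
    ring
  have e2 : ζ * (C.lap (b + c • u) * C.lap (b + c • u))
      = ζ * (C.lap b * C.lap b) + (2 * c) • (ζ * (C.lap b * C.lap u))
        + (c ^ 2) • (ζ * (C.lap u * C.lap u)) := by
    rw [hC.lap_add hBi hb hcu, hC.lap_smul hBi c hu]
    algebra
  unfold QN
  rw [e1, e2, I_add (mem_add k1 (mem_smul _ k2)) (mem_smul _ k3), I_add k1 (mem_smul _ k2),
    I_smul, I_smul]
  ring

theorem QN_young (hC : IsGamma C) (hn : 0 < n) (hB : C.BE κ n) (hb : b ∈ C.Test) (hu : u ∈ C.Test)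
    (hζ : ζ ∈ C.A) (h0 : 0 ≤ ζ) {l : ℝ} (hl : 0 < l) :
    |2 * QN C κ n b u ζ| ≤ l * QN C κ n b b ζ + l⁻¹ * QN C κ n u u ζ := by
  have hBi := hC.bei hn hB
  have key : ∀ c : ℝ, 0 ≤ QN C κ n b b ζ + 2 * c * QN C κ n b u ζ + c ^ 2 * QN C κ n u u ζ :=
    fun c => by
      rw [← QN_expand hC hBi hb hu hζ c]
      exact QN_nonneg hC hn hB (hC.test_add hBi hb (hC.test_smul hBi c hu)) hζ h0
  have e : l * l⁻¹ = 1 := mul_inv_cancel₀ hl.ne'
  have h1 := mul_nonneg hl.le (key l⁻¹)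
  have h2 := mul_nonneg hl.le (key (-l⁻¹))
  have e1 : l * (QN C κ n b b ζ + 2 * l⁻¹ * QN C κ n b u ζ + l⁻¹ ^ 2 * QN C κ n u u ζ)
      = l * QN C κ n b b ζ + 2 * QN C κ n b u ζ + l⁻¹ * QN C κ n u u ζ := by
    linear_combination (2 * QN C κ n b u ζ + l⁻¹ * QN C κ n u u ζ) * e
  have e2 : l * (QN C κ n b b ζ + 2 * (-l⁻¹) * QN C κ n b u ζ + (-l⁻¹) ^ 2 * QN C κ n u u ζ)
      = l * QN C κ n b b ζ - 2 * QN C κ n b u ζ + l⁻¹ * QN C κ n u u ζ := by
    linear_combination (-2 * QN C κ n b u ζ + l⁻¹ * QN C κ n u u ζ) * e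
  rw [e1] at h1
  rw [e2] at h2
  rw [abs_le]
  constructor <;> linarith

theorem Γ_young (hC : IsGamma C) (hb : b ∈ C.W) (hu : u ∈ C.W) (hζ : MemLp ζ ∞ m)
    (h0 : 0 ≤ ζ) {l : ℝ} (hl : 0 < l) :
    |2 * I (ζ * C.Γ b u)| ≤ l * I (ζ * C.Γ b b) + l⁻¹ * I (ζ * C.Γ u u) := by
  have hD := hC.toIsDir
  have k1 := mem_mul_top hζ (hD.Γ_mem1 hb hb)
  have k2 := mem_mul_top hζ (hD.Γ_mem1 hb hu)
  have k3 := mem_mul_top hζ (hD.Γ_mem1 hu hu)
  have key : ∀ c : ℝ, 0 ≤ I (ζ * C.Γ b b) + 2 * c * I (ζ * C.Γ b u) + c ^ 2 * I (ζ * C.Γ u u) :=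
    fun c => by
      have h1 := I_nonneg (mul_nonneg h0 (hC.nonneg _ (hC.add_mem b hb _ (hC.smul_mem c u hu))))
      rw [hD.Γ_expand c hb hu, mul_add, mul_add, mul_smul_comm, mul_smul_comm,
        I_add (mem_add k1 (mem_smul _ k2)) (mem_smul _ k3), I_add k1 (mem_smul _ k2), I_smul,
        I_smul] at h1
      exact h1
  have e : l * l⁻¹ = 1 := mul_inv_cancel₀ hl.ne'
  have h1 := mul_nonneg hl.le (key l⁻¹)
  have h2 := mul_nonneg hl.le (key (-l⁻¹))
  have e1 : l * (I (ζ * C.Γ b b) + 2 * l⁻¹ * I (ζ * C.Γ b u) + l⁻¹ ^ 2 * I (ζ * C.Γ u u))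
      = l * I (ζ * C.Γ b b) + 2 * I (ζ * C.Γ b u) + l⁻¹ * I (ζ * C.Γ u u) := by
    linear_combination (2 * I (ζ * C.Γ b u) + l⁻¹ * I (ζ * C.Γ u u)) * e
  have e2 : l * (I (ζ * C.Γ b b) + 2 * (-l⁻¹) * I (ζ * C.Γ b u) + (-l⁻¹) ^ 2 * I (ζ * C.Γ u u))
      = l * I (ζ * C.Γ b b) - 2 * I (ζ * C.Γ b u) + l⁻¹ * I (ζ * C.Γ u u) := by
    linear_combination (-2 * I (ζ * C.Γ b u) + l⁻¹ * I (ζ * C.Γ u u)) * e
  rw [e1] at h1
  rw [e2] at h2
  rw [abs_le]
  constructor <;> linarith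

end forms

/-! ### derivatives along a centre family -/

section centre

variable {φ : ℝ → M →ₘ[m] ℝ} {w u : M →ₘ[m] ℝ} {κ n s T : ℝ}

theorem deriv_A (hC : IsGamma C) (hB : C.BEi κ) (hφ : Vale.Agent.P233.Cen C φ)
    (hT : ∀ t, 0 < t → C.P t w ∈ C.TestI) (hw : MemLp w 2 m) (hs : 0 < s) (hsT : s < T) :
    HasDerivAt (fun r => I (φ r * C.Γ (C.P (T - r) w) (C.P (T - r) w)))
      (2 * C.NN κ (C.P (T - s) w) (C.P (T - s) w) (φ s)
        + 2 * κ * I (φ s * C.Γ (C.P (T - s) w) (C.P (T - s) w))) s := by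
  have hD := hC.toIsDir
  set ε := s / 2 with hε
  have hε0 : 0 < ε := by positivity
  set δ := (T - s) / 2 with hδ
  have hδ0 : 0 < δ := by rw [hδ]; linarith
  have key := deriv_bb (s := s - ε) (t := T - δ - ε) hC hB (hφ.mem2 ε hε0) (hφ.top ε hε0)
    (hT δ hδ0) (hT δ hδ0) (by rw [hε]; linarith) (by rw [hδ]; linarith)
  have hev : ∀ r, ε < r → r < T - δ →
      I (C.P (r - ε) (φ ε) * C.Γ (C.P (T - δ - ε - (r - ε)) (C.P δ w))
        (C.P (T - δ - ε - (r - ε)) (C.P δ w)))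
      = I (φ r * C.Γ (C.P (T - r) w) (C.P (T - r) w)) := by
    intro r h1 h2
    rw [hφ.semi ε (r - ε) hε0 (by linarith), hD.P_P (by linarith) hδ0.le hw]
    congr 2
    · congr 1; ring
    · congr 2 <;> ring
  have e1 : C.P (T - δ - ε - (s - ε)) (C.P δ w) = C.P (T - s) w := by
    rw [hD.P_P (by rw [hδ]; linarith) hδ0.le hw]; congr 1; ring
  have e2 : C.P (s - ε) (φ ε) = φ s := by
    rw [hφ.semi ε (s - ε) hε0 (by rw [hε]; linarith)]; congr 1; ring
  rw [e1, e2] at key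
  have key2 := HasDerivAt.comp_sub_const s ε key
  refine key2.congr_of_eventuallyEq ?_
  filter_upwards [lt_mem_nhds (show ε < s by rw [hε]; linarith),
    gt_mem_nhds (show s < T - δ by rw [hδ]; linarith)] with r h1 h2
  exact (hev r h1 h2).symm

theorem deriv_F (hC : IsGamma C) (hB : C.BEi κ) (hφ : Vale.Agent.P233.Cen C φ)
    (hT : ∀ t, 0 < t → C.P t w ∈ C.TestI) (hw : MemLp w 2 m) (hu : u ∈ C.TestI)
    (hs : 0 < s) (hsT : s < T) :
    HasDerivAt (fun r => I (φ r * C.Γ (C.P (T - r) w) u))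
      (2 * C.NN κ (C.P (T - s) w) u (φ s) + I (φ s * C.Γ (C.P (T - s) w) (C.lap u))
        + 2 * κ * I (φ s * C.Γ (C.P (T - s) w) u)) s := by
  have hD := hC.toIsDir
  set ε := s / 2 with hε
  have hε0 : 0 < ε := by positivity
  set δ := (T - s) / 2 with hδ
  have hδ0 : 0 < δ := by rw [hδ]; linarith
  have key := deriv_bu (s := s - ε) (t := T - δ - ε) hC hB (hφ.mem2 ε hε0) (hφ.top ε hε0)
    (hT δ hδ0) hu (by rw [hε]; linarith) (by rw [hδ]; linarith)
  have hev : ∀ r, ε < r → r < T - δ →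
      I (C.P (r - ε) (φ ε) * C.Γ (C.P (T - δ - ε - (r - ε)) (C.P δ w)) u)
      = I (φ r * C.Γ (C.P (T - r) w) u) := by
    intro r h1 h2
    rw [hφ.semi ε (r - ε) hε0 (by linarith), hD.P_P (by linarith) hδ0.le hw]
    congr 2
    · congr 1; ring
    · congr 2; ring
  have e1 : C.P (T - δ - ε - (s - ε)) (C.P δ w) = C.P (T - s) w := by
    rw [hD.P_P (by rw [hδ]; linarith) hδ0.le hw]; congr 1; ring
  have e2 : C.P (s - ε) (φ ε) = φ s := by
    rw [hφ.semi ε (s - ε) hε0 (by rw [hε]; linarith)]; congr 1; ring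
  rw [e1, e2] at key
  have key2 := HasDerivAt.comp_sub_const s ε key
  refine key2.congr_of_eventuallyEq ?_
  filter_upwards [lt_mem_nhds (show ε < s by rw [hε]; linarith),
    gt_mem_nhds (show s < T - δ by rw [hδ]; linarith)] with r h1 h2
  exact (hev r h1 h2).symm

theorem deriv_U (hC : IsGamma C) (hB : C.BEi κ) (hφ : Vale.Agent.P233.Cen C φ) (hu : u ∈ C.TestI) (hs : 0 < s) :
    HasDerivAt (fun r => I (φ r * C.Γ u u))
      (2 * C.NN κ u u (φ s) + 2 * I (φ s * C.Γ u (C.lap u)) + 2 * κ * I (φ s * C.Γ u u)) s := by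
  have hD := hC.toIsDir
  set ε := s / 2 with hε
  have hε0 : 0 < ε := by positivity
  have key := deriv_uu (s := s - ε) hC hB (hφ.mem2 ε hε0) (hφ.top ε hε0) hu hu
    (by rw [hε]; linarith)
  have hev : ∀ r, ε < r → I (C.P (r - ε) (φ ε) * C.Γ u u) = I (φ r * C.Γ u u) := by
    intro r h1
    rw [hφ.semi ε (r - ε) hε0 (by linarith)]
    congr 3; ring
  have e2 : C.P (s - ε) (φ ε) = φ s := by
    rw [hφ.semi ε (s - ε) hε0 (by rw [hε]; linarith)]; congr 1; ring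
  rw [e2] at key
  have hζ := hφ.memA hC.toIsDir hs
  have k1 : MemLp (φ s * C.Γ u (C.lap u)) 1 m :=
    mem_mul_top hζ.2 (hD.Γ_mem1 (hC.test_A hu.1).1 (hC.test_lap_mem hu.1))
  rw [mul_add, I_add k1 k1, ← two_mul] at key
  have key2 := HasDerivAt.comp_sub_const s ε key
  refine key2.congr_of_eventuallyEq ?_
  filter_upwards [lt_mem_nhds (show ε < s by rw [hε]; linarith)] with r h1
  exact (hev r h1).symm

/-- the Laplacian of `P_T w` at the centre -/
theorem lap_const (hD : IsDir C) (hφ : Vale.Agent.P233.Cen C φ) (hw : MemLp w 2 m) {r : ℝ}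
    (hs : 0 < s) (hsT : s < T) (hr : 0 < r) (hrT : r < T) :
    I (φ s * C.lap (C.P (T - s) w)) = I (φ r * C.lap (C.P (T - r) w)) := by
  wlog hsr : s < r generalizing s r
  · rcases (not_lt.1 hsr).eq_or_lt with h | h
    · rw [h]
    · exact (this hr hrT hs hsT h).symm
  have e1 : C.lap (C.P (T - s) w) = C.P (r - s) (C.lap (C.P (T - r) w)) := by
    have := hD.P_lap_add (s := r - s) (t := T - r) (by linarith) (by linarith) hw
    rw [← this]; congr 2; ring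
  have h2 := (hD.P_isLap (t := T - r) (by linarith) hw).2.1
  rw [e1, ← hD.P_symm _ (hφ.mem2 s hs) h2, hφ.semi s (r - s) hs (by linarith)]
  congr 3; ring

/-- Jensen -/
theorem jensen (hφ : Vale.Agent.P233.Cen C φ) (hs : 0 < s) {h : M →ₘ[m] ℝ} (h2 : MemLp h 2 m) :
    I (φ s * h) ^ 2 ≤ I (φ s * (h * h)) := by
  have k1 : MemLp (φ s * (h * h)) 1 m := mem_mul_top (hφ.top s hs) (mem_mul_22 h2 h2)
  have k2 : MemLp (φ s * h) 1 m := mem_mul_22 (hφ.mem2 s hs) h2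
  have k3 := hφ.mem1 s hs
  have key : ∀ c : ℝ, 0 ≤ I (φ s * (h * h)) + 2 * c * I (φ s * h) + c ^ 2 * 1 := fun c => by
    have h1 := I_nonneg (mul_nonneg (hφ.nonneg s hs) (sq_nonneg' (h + c • (1 : M →ₘ[m] ℝ))))
    have e : φ s * (h + c • (1 : M →ₘ[m] ℝ)) ^ 2
        = φ s * (h * h) + (2 * c) • (φ s * h) + (c ^ 2) • φ s := by algebra
    rw [e, I_add (mem_add k1 (mem_smul _ k2)) (mem_smul _ k3), I_add k1 (mem_smul _ k2), I_smul,
      I_smul, hφ.mass s hs] at h1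
    exact h1
  have := disc_of_forall key
  linarith

end centre

end Vale.Agent.P242.H924
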