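import Vale.Agent.P242.H924.Core

/-! P242, A-E4, (E4c): main estimate. For a centre family `φ`, `w ∈ W` bounded, `u ∈ TestI`,
`0 < τ < T`, `ℓ = (Δ P_T w)(y)`: for all `l > 0`
`|P_τ Γ(P_{T-τ} w, u)(y)| ≤ l X + Y / l + E` with
`X = ½ e^{2|κ|T} P_T|∇w|²(y) - (T/n) e^{-4|κ|T} ℓ²`, `Y = ½ P_τ|∇u|²(y) + τ e^{4|κ|T} e₃`,
`E = τ e^{4|κ|T} e₁`. -/

open MeasureTheory Filter Topology
open scoped ENNReal NNReal InnerProductSpace

namespace Vale.Agent.P242.H924

open Vale.Agent.P233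

variable {M : Type*} [MeasurableSpace M] {m : Measure M} {C : Calc m}
variable {φ : ℝ → M →ₘ[m] ℝ} {w u : M →ₘ[m] ℝ} {κ n s T τ : ℝ}

theorem exp_bd (hs : 0 ≤ s) (hsT : s ≤ T) :
    Real.exp (-(2 * |κ| * T)) ≤ Real.exp (-(2 * κ * s)) ∧
      Real.exp (-(2 * κ * s)) ≤ Real.exp (2 * |κ| * T) := by
  have h1 : κ ≤ |κ| := le_abs_self κ
  have h2 : -κ ≤ |κ| := neg_le_abs κ
  have h0 : 0 ≤ |κ| := abs_nonneg κ
  have h3 : κ * s ≤ |κ| * T := (mul_le_mul_of_nonneg_right h1 hs).trans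
    (mul_le_mul_of_nonneg_left hsT h0)
  have h4 : -κ * s ≤ |κ| * T := (mul_le_mul_of_nonneg_right h2 hs).trans
    (mul_le_mul_of_nonneg_left hsT h0)
  constructor <;> apply Real.exp_le_exp.2 <;> linarith

/-- derivative of `e^{-2κs} G(s)` -/
theorem deriv_exp {G : ℝ → ℝ} {G' : ℝ} (h : HasDerivAt G (G' + 2 * κ * G s) s) :
    HasDerivAt (fun r => Real.exp (-(2 * κ * r)) * G r) (Real.exp (-(2 * κ * s)) * G') s := by
  have h1 : HasDerivAt (fun r => -(2 * κ * r)) (-(2 * κ)) s := by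
    have := (hasDerivAt_id s).const_mul (-(2 * κ))
    simp only [id, mul_one] at this
    refine this.congr_of_eventuallyEq (Eventually.of_forall fun r => ?_)
    ring
  have h2 := h1.exp.mul h
  refine h2.congr_deriv ?_
  ring

/-- lower bound of the derivative of the energy along the flow -/
theorem NN_ge (hC : IsGamma C) (hn : 0 < n) (hB : C.BE κ n) (hφ : Vale.Agent.P233.Cen C φ)
    (hT : ∀ t, 0 < t → C.P t w ∈ C.TestI) {ℓ : ℝ}
    (hℓ : ∀ r, 0 < r → r < T → I (φ r * C.lap (C.P (T - r) w)) = ℓ) (hs : 0 < s) (hsT : s < T) :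
    n⁻¹ * ℓ ^ 2 ≤ n⁻¹ * I (φ s * (C.lap (C.P (T - s) w) * C.lap (C.P (T - s) w))) ∧
    n⁻¹ * ℓ ^ 2 ≤ C.NN κ (C.P (T - s) w) (C.P (T - s) w) (φ s) := by
  have hb := hT (T - s) (by linarith)
  have h2 := (hC.test_isLap hb.1).2.1
  have h1 := jensen hφ hs h2
  rw [hℓ s hs hsT] at h1
  have h3 : n⁻¹ * ℓ ^ 2 ≤ n⁻¹ * I (φ s * (C.lap (C.P (T - s) w) * C.lap (C.P (T - s) w))) :=
    mul_le_mul_of_nonneg_left h1 (inv_nonneg.2 hn.le)
  refine ⟨h3, ?_⟩
  have h4 := QN_nonneg hC hn hB hb.1 (hφ.memA hC.toIsDir hs) (hφ.nonneg s hs)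
  unfold QN at h4
  linarith

/-- the energy at time `τ` against the energy at time `T` -/
theorem energy_le (hC : IsGamma C) (hn : 0 < n) (hB : C.BE κ n) (hφ : Vale.Agent.P233.Cen C φ)
    (hT : ∀ t, 0 < t → C.P t w ∈ C.TestI) (hw : w ∈ C.W) {ℓ : ℝ}
    (hℓ : ∀ r, 0 < r → r < T → I (φ r * C.lap (C.P (T - r) w)) = ℓ) (hτ : 0 < τ) (hτT : τ < T) :
    I (φ τ * C.Γ (C.P (T - τ) w) (C.P (T - τ) w))
      ≤ Real.exp (2 * |κ| * T) * I (φ T * C.Γ w w)
        - (T - τ) * (Real.exp (-(4 * |κ| * T)) * (2 * (n⁻¹ * ℓ ^ 2))) := by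
  have hD := hC.toIsDir
  have hBi := hC.bei hn hB
  have hw2 := hC.memLp _ hw
  have hE0 : 0 ≤ I (φ T * C.Γ w w) :=
    I_nonneg (mul_nonneg (hφ.nonneg T (by linarith)) (hC.nonneg _ hw))
  have hq0 : 0 ≤ 2 * (n⁻¹ * ℓ ^ 2) := by positivity
  set A : ℝ → ℝ := fun r => I (φ r * C.Γ (C.P (T - r) w) (C.P (T - r) w)) with hA
  have hd : ∀ r, 0 < r → r < T → HasDerivAt (fun r => Real.exp (-(2 * κ * r)) * A r)
      (Real.exp (-(2 * κ * r)) * (2 * C.NN κ (C.P (T - r) w) (C.P (T - r) w) (φ r))) r :=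
    fun r h1 h2 => deriv_exp (deriv_A hC hBi hφ hT hw2 h1 h2)
  -- bound for `s₂ < T`
  have key : ∀ s₂, τ < s₂ → s₂ < T → A τ ≤ Real.exp (2 * |κ| * T) * I (φ T * C.Γ w w)
      - (s₂ - τ) * (Real.exp (-(4 * |κ| * T)) * (2 * (n⁻¹ * ℓ ^ 2))) := by
    intro s₂ h1 h2
    have hmv := Convex.mul_sub_le_image_sub_of_le_deriv (convex_Icc τ s₂)
      (f := fun r => Real.exp (-(2 * κ * r)) * A r)
      (fun r hr => (hd r (by linarith [hr.1]) (by linarith [hr.2])).continuousAt.continuousWithinAt)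
      (fun r hr => by
        rw [interior_Icc] at hr
        exact (hd r (by linarith [hr.1]) (by linarith [hr.2])).differentiableAt.differentiableWithinAt)
      (C := Real.exp (-(2 * |κ| * T)) * (2 * (n⁻¹ * ℓ ^ 2)))
      (fun r hr => by
        rw [interior_Icc] at hr
        rw [(hd r (by linarith [hr.1]) (by linarith [hr.2])).deriv]
        have g1 := (exp_bd (κ := κ) (s := r) (T := T) (by linarith [hr.1]) (by linarith [hr.2])).1
        have g2 := (NN_ge hC hn hB hφ hT hℓ (s := r) (by linarith [hr.1])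
          (by linarith [hr.2])).2
        calc Real.exp (-(2 * |κ| * T)) * (2 * (n⁻¹ * ℓ ^ 2))
            ≤ Real.exp (-(2 * κ * r)) * (2 * (n⁻¹ * ℓ ^ 2)) := mul_le_mul_of_nonneg_right g1 hq0
          _ ≤ _ := mul_le_mul_of_nonneg_left (by linarith) (Real.exp_pos _).le)
      τ (Set.left_mem_Icc.2 h1.le) s₂ (Set.right_mem_Icc.2 h1.le) h1.le
    -- energy at `s₂`
    have hgr := IsGamma.P_gradW hC hBi (t := T - s₂) (by linarith) hw (hφ.nonneg s₂ (by linarith))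
      (hφ.mem2 s₂ (by linarith)) (hφ.top s₂ (by linarith))
    rw [hφ.semi s₂ (T - s₂) (by linarith) (by linarith)] at hgr
    have e0 : s₂ + (T - s₂) = T := by ring
    rw [e0] at hgr
    have hA2 : Real.exp (-(2 * κ * s₂)) * A s₂ ≤ Real.exp (-(2 * κ * T)) * I (φ T * C.Γ w w) := by
      have g1 := mul_le_mul_of_nonneg_left hgr (Real.exp_pos (-(2 * κ * s₂))).le
      rw [← mul_assoc, ← Real.exp_add] at g1
      have e1 : -(2 * κ * s₂) + -(2 * κ * (T - s₂)) = -(2 * κ * T) := by ring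
      rw [e1] at g1
      exact g1
    have g3 : Real.exp (-(2 * κ * τ)) * A τ ≤ Real.exp (-(2 * κ * T)) * I (φ T * C.Γ w w)
        - Real.exp (-(2 * |κ| * T)) * (2 * (n⁻¹ * ℓ ^ 2)) * (s₂ - τ) := by
      have hmv' : Real.exp (-(2 * |κ| * T)) * (2 * (n⁻¹ * ℓ ^ 2)) * (s₂ - τ)
        ≤ Real.exp (-(2 * κ * s₂)) * A s₂ - Real.exp (-(2 * κ * τ)) * A τ := hmv
      linarith
    have g4 := mul_le_mul_of_nonneg_left g3 (Real.exp_pos (2 * κ * τ)).le
    rw [← mul_assoc, ← Real.exp_add, mul_sub, ← mul_assoc, ← Real.exp_add] at g4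
    have e2 : 2 * κ * τ + -(2 * κ * τ) = 0 := by ring
    have e3 : 2 * κ * τ + -(2 * κ * T) = -(2 * κ * (T - τ)) := by ring
    rw [e2, Real.exp_zero, one_mul, e3] at g4
    have g5 := (exp_bd (κ := κ) (s := T - τ) (T := T) (by linarith) (by linarith)).2
    have g6 : Real.exp (-(4 * |κ| * T)) ≤ Real.exp (2 * κ * τ) * Real.exp (-(2 * |κ| * T)) := by
      rw [← Real.exp_add]
      apply Real.exp_le_exp.2
      have h2' : -κ ≤ |κ| := neg_le_abs κ
      have h0' : 0 ≤ |κ| := abs_nonneg κ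
      have h4' : -κ * τ ≤ |κ| * T := (mul_le_mul_of_nonneg_right h2' hτ.le).trans
        (mul_le_mul_of_nonneg_left hτT.le h0')
      linarith
    have g7 : Real.exp (-(2 * κ * (T - τ))) * I (φ T * C.Γ w w)
        ≤ Real.exp (2 * |κ| * T) * I (φ T * C.Γ w w) := mul_le_mul_of_nonneg_right g5 hE0
    have g8 : (s₂ - τ) * (Real.exp (-(4 * |κ| * T)) * (2 * (n⁻¹ * ℓ ^ 2)))
        ≤ Real.exp (2 * κ * τ) * (Real.exp (-(2 * |κ| * T)) * (2 * (n⁻¹ * ℓ ^ 2)) * (s₂ - τ)) := by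
      have : (s₂ - τ) * (2 * (n⁻¹ * ℓ ^ 2)) * Real.exp (-(4 * |κ| * T))
          ≤ (s₂ - τ) * (2 * (n⁻¹ * ℓ ^ 2)) * (Real.exp (2 * κ * τ) * Real.exp (-(2 * |κ| * T))) :=
        mul_le_mul_of_nonneg_left g6 (mul_nonneg (by linarith) hq0)
      linarith
    linarith
  have hlim : Tendsto (fun s₂ : ℝ => Real.exp (2 * |κ| * T) * I (φ T * C.Γ w w)
      - (s₂ - τ) * (Real.exp (-(4 * |κ| * T)) * (2 * (n⁻¹ * ℓ ^ 2)))) (𝓝[<] T)
      (𝓝 (Real.exp (2 * |κ| * T) * I (φ T * C.Γ w w)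
      - (T - τ) * (Real.exp (-(4 * |κ| * T)) * (2 * (n⁻¹ * ℓ ^ 2))))) := by
    have : Continuous (fun s₂ : ℝ => Real.exp (2 * |κ| * T) * I (φ T * C.Γ w w)
      - (s₂ - τ) * (Real.exp (-(4 * |κ| * T)) * (2 * (n⁻¹ * ℓ ^ 2)))) := by fun_prop
    exact (this.tendsto T).mono_left nhdsWithin_le_nhds
  refine ge_of_tendsto hlim ?_
  filter_upwards [Ioo_mem_nhdsLT hτT] with s₂ hs₂ using key s₂ hs₂.1 hs₂.2

/-- (E4c), kernel-free -/
theorem E4c_core (hC : IsGamma C) (hn : 0 < n) (hB : C.BE κ n) (hφ : Vale.Agent.P233.Cen C φ)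
    (hT : ∀ t, 0 < t → C.P t w ∈ C.TestI) (hw : w ∈ C.W) (hu : u ∈ C.TestI) {ℓ e₁ e₃ : ℝ}
    (hℓ : ∀ r, 0 < r → r < T → I (φ r * C.lap (C.P (T - r) w)) = ℓ)
    (hτ : 0 < τ) (hτT : τ < T)
    (he1 : ∀ s, 0 < s → s < τ →
      |2 * n⁻¹ * I (φ s * (C.lap (C.P (T - s) w) * C.lap u)) + I (φ s * C.Γ (C.P (T - s) w) (C.lap u))|
        ≤ e₁)
    (he3 : ∀ s, 0 < s → s < τ → |I (φ s * C.Γ u (C.lap u))| ≤ e₃) {l : ℝ} (hl : 0 < l) :
    |I (φ τ * C.Γ (C.P (T - τ) w) u)|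
      ≤ l * (2⁻¹ * (Real.exp (2 * |κ| * T) * I (φ T * C.Γ w w))
          - T * (Real.exp (-(4 * |κ| * T)) * (n⁻¹ * ℓ ^ 2)))
        + l⁻¹ * (2⁻¹ * I (φ τ * C.Γ u u) + τ * (Real.exp (4 * |κ| * T) * e₃))
        + τ * (Real.exp (4 * |κ| * T) * e₁) := by
  have hD := hC.toIsDir
  have hBi := hC.bei hn hB
  have hw2 := hC.memLp _ hw
  have hli : 0 < l⁻¹ := inv_pos.2 hl
  have uW := (hC.test_A hu.1).1
  have hq0 : 0 ≤ n⁻¹ * ℓ ^ 2 := by positivity
  have he10 : 0 ≤ e₁ := (abs_nonneg _).trans (he1 (τ / 2) (by linarith) (by linarith))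
  have he30 : 0 ≤ e₃ := (abs_nonneg _).trans (he3 (τ / 2) (by linarith) (by linarith))
  set F : ℝ → ℝ := fun r => I (φ r * C.Γ (C.P (T - r) w) u) with hF
  set A : ℝ → ℝ := fun r => I (φ r * C.Γ (C.P (T - r) w) (C.P (T - r) w)) with hA
  set U : ℝ → ℝ := fun r => I (φ r * C.Γ u u) with hU
  set B := Real.exp (2 * |κ| * T) * (e₁ + l⁻¹ * e₃)
    - l * (Real.exp (-(2 * |κ| * T)) * (n⁻¹ * ℓ ^ 2)) with hBdef
  -- for both signs
  have key : ∀ σ : ℝ, |σ| = 1 → Real.exp (-(2 * κ * τ)) * (σ * F τ - l / 2 * A τ - l⁻¹ / 2 * U τ)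
      ≤ τ * B := by
    intro σ hσ
    have hd : ∀ r, 0 < r → r < T → HasDerivAt
        (fun r => Real.exp (-(2 * κ * r)) * (σ * F r - l / 2 * A r - l⁻¹ / 2 * U r))
        (Real.exp (-(2 * κ * r)) * (σ * (2 * C.NN κ (C.P (T - r) w) u (φ r)
          + I (φ r * C.Γ (C.P (T - r) w) (C.lap u)))
          - l / 2 * (2 * C.NN κ (C.P (T - r) w) (C.P (T - r) w) (φ r))
          - l⁻¹ / 2 * (2 * C.NN κ u u (φ r) + 2 * I (φ r * C.Γ u (C.lap u))))) r := by
      intro r h1 h2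
      refine deriv_exp ?_
      have d1 := (deriv_F hC hBi hφ hT hw2 hu h1 h2).const_mul σ
      have d2 := (deriv_A hC hBi hφ hT hw2 h1 h2).const_mul (l / 2)
      have d3 := (deriv_U hC hBi hφ hu h1).const_mul (l⁻¹ / 2)
      refine ((d1.sub d2).sub d3).congr_deriv ?_
      simp only [hF, hA, hU]
      ring
    have hder : ∀ r, 0 < r → r < τ → Real.exp (-(2 * κ * r)) * (σ * (2 * C.NN κ (C.P (T - r) w) u (φ r)
          + I (φ r * C.Γ (C.P (T - r) w) (C.lap u)))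
          - l / 2 * (2 * C.NN κ (C.P (T - r) w) (C.P (T - r) w) (φ r))
          - l⁻¹ / 2 * (2 * C.NN κ u u (φ r) + 2 * I (φ r * C.Γ u (C.lap u)))) ≤ B := by
      intro r h1 h2
      have hrT : r < T := by linarith
      have hb := hT (T - r) (by linarith)
      have hζ := hφ.memA hC.toIsDir h1
      have y1 := QN_young hC hn hB hb.1 hu.1 hζ (hφ.nonneg r h1) hl
      have y2 := (NN_ge hC hn hB hφ hT hℓ h1 hrT).1
      have y3 := he1 r h1 h2
      have y4 := he3 r h1 h2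
      have y5 : 0 ≤ n⁻¹ * I (φ r * (C.lap u * C.lap u)) := by
        refine mul_nonneg (inv_nonneg.2 hn.le) (I_nonneg (mul_nonneg (hφ.nonneg r h1) ?_))
        have := sq_nonneg' (C.lap u)
        rwa [sq] at this
      have s1 : σ * (2 * C.NN κ (C.P (T - r) w) u (φ r)
          + I (φ r * C.Γ (C.P (T - r) w) (C.lap u)))
          = σ * (2 * QN C κ n (C.P (T - r) w) u (φ r))
            + σ * (2 * n⁻¹ * I (φ r * (C.lap (C.P (T - r) w) * C.lap u))
              + I (φ r * C.Γ (C.P (T - r) w) (C.lap u))) := by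
        unfold QN; ring
      have s2 : σ * (2 * QN C κ n (C.P (T - r) w) u (φ r))
          ≤ l * QN C κ n (C.P (T - r) w) (C.P (T - r) w) (φ r) + l⁻¹ * QN C κ n u u (φ r) := by
        refine (le_abs_self _).trans ?_
        rw [abs_mul, hσ, one_mul]
        exact y1
      have s3 : σ * (2 * n⁻¹ * I (φ r * (C.lap (C.P (T - r) w) * C.lap u))
              + I (φ r * C.Γ (C.P (T - r) w) (C.lap u))) ≤ e₁ := by
        refine (le_abs_self _).trans ?_
        rw [abs_mul, hσ, one_mul]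
        exact y3
      have s4 : -(l⁻¹ * I (φ r * C.Γ u (C.lap u))) ≤ l⁻¹ * e₃ := by
        have := mul_le_mul_of_nonneg_left ((neg_le_abs _).trans y4) hli.le
        linarith
      have s5 : l * (n⁻¹ * ℓ ^ 2) ≤ l * (n⁻¹ * I (φ r * (C.lap (C.P (T - r) w)
          * C.lap (C.P (T - r) w)))) := mul_le_mul_of_nonneg_left y2 hl.le
      have s6 : 0 ≤ l⁻¹ * (n⁻¹ * I (φ r * (C.lap u * C.lap u))) := mul_nonneg hli.le y5
      have tot : σ * (2 * C.NN κ (C.P (T - r) w) u (φ r)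
          + I (φ r * C.Γ (C.P (T - r) w) (C.lap u)))
          - l / 2 * (2 * C.NN κ (C.P (T - r) w) (C.P (T - r) w) (φ r))
          - l⁻¹ / 2 * (2 * C.NN κ u u (φ r) + 2 * I (φ r * C.Γ u (C.lap u)))
          ≤ (e₁ + l⁻¹ * e₃) - l * (n⁻¹ * ℓ ^ 2) := by
        rw [s1]
        have q1 : QN C κ n (C.P (T - r) w) (C.P (T - r) w) (φ r)
          = C.NN κ (C.P (T - r) w) (C.P (T - r) w) (φ r)
            - n⁻¹ * I (φ r * (C.lap (C.P (T - r) w) * C.lap (C.P (T - r) w))) := rfl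
        have q2 : QN C κ n u u (φ r) = C.NN κ u u (φ r) - n⁻¹ * I (φ r * (C.lap u * C.lap u)) := rfl
        rw [q1, q2] at s2
        nlinarith [s2, s3, s4, s5, s6]
      obtain ⟨x1, x2⟩ := exp_bd (κ := κ) (s := r) (T := T) h1.le hrT.le
      calc _ ≤ Real.exp (-(2 * κ * r)) * ((e₁ + l⁻¹ * e₃) - l * (n⁻¹ * ℓ ^ 2)) :=
            mul_le_mul_of_nonneg_left tot (Real.exp_pos _).le
        _ = Real.exp (-(2 * κ * r)) * (e₁ + l⁻¹ * e₃)
            - l * (n⁻¹ * ℓ ^ 2) * Real.exp (-(2 * κ * r)) := by ring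
        _ ≤ Real.exp (2 * |κ| * T) * (e₁ + l⁻¹ * e₃)
            - l * (n⁻¹ * ℓ ^ 2) * Real.exp (-(2 * |κ| * T)) := by
            have a1 := mul_le_mul_of_nonneg_right x2
              (show 0 ≤ e₁ + l⁻¹ * e₃ from add_nonneg he10 (mul_nonneg hli.le he30))
            have a2 := mul_le_mul_of_nonneg_left x1
              (show 0 ≤ l * (n⁻¹ * ℓ ^ 2) from mul_nonneg hl.le hq0)
            linarith
        _ = B := by rw [hBdef]; ring
    -- start
    have hstart : ∀ r, 0 < r → r < T →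
        Real.exp (-(2 * κ * r)) * (σ * F r - l / 2 * A r - l⁻¹ / 2 * U r) ≤ 0 := by
      intro r h1 h2
      have hb := hT (T - r) (by linarith)
      have y := Γ_young hC (hC.test_A hb.1).1 uW (hφ.top r h1) (hφ.nonneg r h1) hl
      have y' : σ * (2 * F r) ≤ l * A r + l⁻¹ * U r := by
        refine (le_abs_self _).trans ?_
        rw [abs_mul, hσ, one_mul]
        exact y
      have : σ * F r - l / 2 * A r - l⁻¹ / 2 * U r ≤ 0 := by linarith
      exact mul_nonpos_of_nonneg_of_nonpos (Real.exp_pos _).le this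
    have hkey : ∀ s₀, 0 < s₀ → s₀ < τ →
        Real.exp (-(2 * κ * τ)) * (σ * F τ - l / 2 * A τ - l⁻¹ / 2 * U τ) ≤ (τ - s₀) * B := by
      intro s₀ h1 h2
      have hmv := Convex.image_sub_le_mul_sub_of_deriv_le (convex_Icc s₀ τ)
        (f := fun r => Real.exp (-(2 * κ * r)) * (σ * F r - l / 2 * A r - l⁻¹ / 2 * U r))
        (fun r hr =>
          (hd r (by linarith [hr.1]) (by linarith [hr.2])).continuousAt.continuousWithinAt)
        (fun r hr => by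
          rw [interior_Icc] at hr
          exact (hd r (by linarith [hr.1])
            (by linarith [hr.2])).differentiableAt.differentiableWithinAt)
        (C := B)
        (fun r hr => by
          rw [interior_Icc] at hr
          rw [(hd r (by linarith [hr.1]) (by linarith [hr.2])).deriv]
          exact hder r (by linarith [hr.1]) hr.2)
        s₀ (Set.left_mem_Icc.2 h2.le) τ (Set.right_mem_Icc.2 h2.le) h2.le
      have h3 := hstart s₀ h1 (by linarith)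
      linarith
    have hlim : Tendsto (fun s₀ : ℝ => (τ - s₀) * B) (𝓝[>] 0) (𝓝 ((τ - 0) * B)) := by
      have : Continuous (fun s₀ : ℝ => (τ - s₀) * B) := by fun_prop
      exact (this.tendsto 0).mono_left nhdsWithin_le_nhds
    rw [sub_zero] at hlim
    refine ge_of_tendsto hlim ?_
    filter_upwards [Ioo_mem_nhdsGT hτ] with s₀ hs₀ using hkey s₀ hs₀.1 hs₀.2
  have hen := energy_le hC hn hB hφ hT hw hℓ hτ hτT
  have fin : ∀ σ : ℝ, |σ| = 1 → σ * F τ
      ≤ l * (2⁻¹ * (Real.exp (2 * |κ| * T) * I (φ T * C.Γ w w))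
          - T * (Real.exp (-(4 * |κ| * T)) * (n⁻¹ * ℓ ^ 2)))
        + l⁻¹ * (2⁻¹ * U τ + τ * (Real.exp (4 * |κ| * T) * e₃))
        + τ * (Real.exp (4 * |κ| * T) * e₁) := by
    intro σ hσ
    have h1 := mul_le_mul_of_nonneg_left (key σ hσ) (Real.exp_pos (2 * κ * τ)).le
    rw [← mul_assoc, ← Real.exp_add] at h1
    have e0 : 2 * κ * τ + -(2 * κ * τ) = 0 := by ring
    rw [e0, Real.exp_zero, one_mul] at h1
    -- exponential factors
    have g1 : Real.exp (2 * κ * τ) * Real.exp (2 * |κ| * T) ≤ Real.exp (4 * |κ| * T) := by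
      rw [← Real.exp_add]
      apply Real.exp_le_exp.2
      have h4' : κ * τ ≤ |κ| * T := (mul_le_mul_of_nonneg_right (le_abs_self κ) hτ.le).trans
        (mul_le_mul_of_nonneg_left hτT.le (abs_nonneg κ))
      linarith
    have g2 : Real.exp (-(4 * |κ| * T)) ≤ Real.exp (2 * κ * τ) * Real.exp (-(2 * |κ| * T)) := by
      rw [← Real.exp_add]
      apply Real.exp_le_exp.2
      have h4' : -κ * τ ≤ |κ| * T := (mul_le_mul_of_nonneg_right (neg_le_abs κ) hτ.le).trans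
        (mul_le_mul_of_nonneg_left hτT.le (abs_nonneg κ))
      linarith
    have g3 : Real.exp (2 * κ * τ) * (τ * B) ≤ τ * (Real.exp (4 * |κ| * T) * (e₁ + l⁻¹ * e₃))
        - τ * (l * (Real.exp (-(4 * |κ| * T)) * (n⁻¹ * ℓ ^ 2))) := by
      have a1 := mul_le_mul_of_nonneg_right g1
        (show 0 ≤ τ * (e₁ + l⁻¹ * e₃) from
          mul_nonneg hτ.le (add_nonneg he10 (mul_nonneg hli.le he30)))
      have a2 := mul_le_mul_of_nonneg_right g2
        (show 0 ≤ τ * (l * (n⁻¹ * ℓ ^ 2)) from mul_nonneg hτ.le (mul_nonneg hl.le hq0))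
      rw [hBdef]
      linarith
    have g4 : l / 2 * A τ ≤ l / 2 * (Real.exp (2 * |κ| * T) * I (φ T * C.Γ w w)
        - (T - τ) * (Real.exp (-(4 * |κ| * T)) * (2 * (n⁻¹ * ℓ ^ 2)))) :=
      mul_le_mul_of_nonneg_left hen (by positivity)
    have : σ * F τ ≤ l / 2 * A τ + l⁻¹ / 2 * U τ + Real.exp (2 * κ * τ) * (τ * B) := by linarith
    have e5 : l * (2⁻¹ * (Real.exp (2 * |κ| * T) * I (φ T * C.Γ w w))
          - T * (Real.exp (-(4 * |κ| * T)) * (n⁻¹ * ℓ ^ 2)))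
        + l⁻¹ * (2⁻¹ * U τ + τ * (Real.exp (4 * |κ| * T) * e₃))
        + τ * (Real.exp (4 * |κ| * T) * e₁)
        = l / 2 * (Real.exp (2 * |κ| * T) * I (φ T * C.Γ w w)
        - (T - τ) * (Real.exp (-(4 * |κ| * T)) * (2 * (n⁻¹ * ℓ ^ 2)))) + l⁻¹ / 2 * U τ
        + (τ * (Real.exp (4 * |κ| * T) * (e₁ + l⁻¹ * e₃))
        - τ * (l * (Real.exp (-(4 * |κ| * T)) * (n⁻¹ * ℓ ^ 2)))) := by ring
    rw [e5]
    linarith
  rw [abs_le]
  have f1 := fin 1 (by norm_num)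
  have f2 := fin (-1) (by norm_num)
  constructor <;> linarith

end Vale.Agent.P242.H924
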