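import Vale.Agent.P242.H924.Core2

/-! P242, A-E4, (E4c): the optimized form, and the form with the drop `ν_T(y)`. -/

open MeasureTheory Filter Topology
open scoped ENNReal NNReal InnerProductSpace

namespace Vale.Agent.P242.H924

open Vale.Agent.P233

variable {M : Type*} [MeasurableSpace M] {m : Measure M} {C : Calc m}
variable {φ : ℝ → M →ₘ[m] ℝ} {w u : M →ₘ[m] ℝ} {κ n s T τ : ℝ}

/-- (E4c), optimized -/
theorem E4c_sqrt (hC : IsGamma C) (hn : 0 < n) (hB : C.BE κ n) (hφ : Vale.Agent.P233.Cen C φ)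
    (hT : ∀ t, 0 < t → C.P t w ∈ C.TestI) (hw : w ∈ C.W) (hu : u ∈ C.TestI) {ℓ e₁ e₃ : ℝ}
    (hℓ : ∀ r, 0 < r → r < T → I (φ r * C.lap (C.P (T - r) w)) = ℓ)
    (hτ : 0 < τ) (hτT : τ < T)
    (he1 : ∀ s, 0 < s → s < τ →
      |2 * n⁻¹ * I (φ s * (C.lap (C.P (T - s) w) * C.lap u)) + I (φ s * C.Γ (C.P (T - s) w) (C.lap u))|
        ≤ e₁)
    (he3 : ∀ s, 0 < s → s < τ → |I (φ s * C.Γ u (C.lap u))| ≤ e₃) :
    0 ≤ 2⁻¹ * (Real.exp (2 * |κ| * T) * I (φ T * C.Γ w w))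
          - T * (Real.exp (-(4 * |κ| * T)) * (n⁻¹ * ℓ ^ 2)) ∧
    |I (φ τ * C.Γ (C.P (T - τ) w) u)|
      ≤ 2 * Real.sqrt ((2⁻¹ * (Real.exp (2 * |κ| * T) * I (φ T * C.Γ w w))
          - T * (Real.exp (-(4 * |κ| * T)) * (n⁻¹ * ℓ ^ 2)))
        * (2⁻¹ * I (φ τ * C.Γ u u) + τ * (Real.exp (4 * |κ| * T) * e₃)))
        + τ * (Real.exp (4 * |κ| * T) * e₁) := by
  have h := fun l (hl : 0 < l) => E4c_core hC hn hB hφ hT hw hu hℓ hτ hτT he1 he3 hl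
  obtain ⟨hX, hY⟩ := coeff_nonneg fun l hl => (abs_nonneg _).trans (h l hl)
  exact ⟨hX, opt_young h hX hY⟩

/-- `n⁻¹ ℓ² ≥ n - 2 ν` when `ℓ ≥ n - ν` and `ν ≥ 0` -/
theorem sq_ge (hn : 0 < n) {ℓ ν : ℝ} (hν : 0 ≤ ν) (h : n - ν ≤ ℓ) : n - 2 * ν ≤ n⁻¹ * ℓ ^ 2 := by
  rw [inv_mul_eq_div, le_div_iff₀ hn]
  rcases le_total 0 (n - ν) with h1 | h1
  · have := mul_le_mul h h h1 (h1.trans h)
    nlinarith
  · nlinarith [sq_nonneg ℓ]

/-- `e^{3x} - e^{-4x} ≤ 7 e³ x` on `[0,1]` -/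
theorem exp_diff {x : ℝ} (h0 : 0 ≤ x) (h1 : x ≤ 1) :
    Real.exp (3 * x) - Real.exp (-(4 * x)) ≤ 7 * Real.exp 3 * x := by
  have h2 : 1 - 7 * x ≤ Real.exp (-(7 * x)) := by
    have := Real.add_one_le_exp (-(7 * x))
    linarith
  have h3 : Real.exp (-(4 * x)) = Real.exp (3 * x) * Real.exp (-(7 * x)) := by
    rw [← Real.exp_add]; congr 1; ring
  have h4 : Real.exp (3 * x) ≤ Real.exp 3 := Real.exp_le_exp.2 (by linarith)
  have h5 : Real.exp (3 * x) * (1 - 7 * x) ≤ Real.exp (-(4 * x)) := by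
    rw [h3]; exact mul_le_mul_of_nonneg_left h2 (Real.exp_pos _).le
  have h6 : Real.exp (3 * x) * (7 * x) ≤ Real.exp 3 * (7 * x) :=
    mul_le_mul_of_nonneg_right h4 (by linarith)
  linarith

/-- the quantity `X` of (E4c) in terms of the drop -/
theorem X_le (hn : 0 < n) {β ℓ ν E K₁ : ℝ} (hT0 : 0 < T) (hK : |κ| ≤ K₁) (hK0 : 0 ≤ K₁)
    (hKT : K₁ * T ≤ 1) (hν : 0 ≤ ν) (hℓ : n - ν ≤ ℓ) (hE : E ≤ 2 * β) (hβ : β ≤ n * T * Real.exp (K₁ * T)) :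
    2⁻¹ * (Real.exp (2 * |κ| * T) * E) - T * (Real.exp (-(4 * |κ| * T)) * (n⁻¹ * ℓ ^ 2))
      ≤ 2 * T * ν + 7 * Real.exp 3 * n * K₁ * T ^ 2 := by
  have h1 := sq_ge hn hν hℓ
  have hKT' : |κ| * T ≤ K₁ * T := mul_le_mul_of_nonneg_right hK hT0.le
  have a1 : Real.exp (-(4 * (K₁ * T))) ≤ Real.exp (-(4 * |κ| * T)) :=
    Real.exp_le_exp.2 (by linarith)
  have a2 : Real.exp (2 * |κ| * T) ≤ Real.exp (2 * (K₁ * T)) := Real.exp_le_exp.2 (by linarith)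
  have a3 : Real.exp (-(4 * |κ| * T)) ≤ 1 := by
    rw [Real.exp_le_one_iff]
    have := mul_nonneg (abs_nonneg κ) hT0.le
    linarith
  have hx0 : 0 ≤ K₁ * T := mul_nonneg hK0 hT0.le
  have b1 : 2⁻¹ * (Real.exp (2 * |κ| * T) * E) ≤ Real.exp (2 * |κ| * T) * β := by
    have := mul_le_mul_of_nonneg_left hE (Real.exp_pos (2 * |κ| * T)).le
    linarith
  have b2 : Real.exp (2 * |κ| * T) * β ≤ n * T * Real.exp (3 * (K₁ * T)) := by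
    have c1 := mul_le_mul_of_nonneg_left hβ (Real.exp_pos (2 * |κ| * T)).le
    have c2 := mul_le_mul_of_nonneg_right a2
      (show 0 ≤ n * T * Real.exp (K₁ * T) by positivity)
    have c3 : Real.exp (2 * (K₁ * T)) * (n * T * Real.exp (K₁ * T))
        = n * T * Real.exp (3 * (K₁ * T)) := by
      have : Real.exp (3 * (K₁ * T)) = Real.exp (2 * (K₁ * T)) * Real.exp (K₁ * T) := by
        rw [← Real.exp_add]; congr 1; ring
      rw [this]; ring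
    linarith
  have b3 : T * (Real.exp (-(4 * |κ| * T)) * (n - 2 * ν))
      ≤ T * (Real.exp (-(4 * |κ| * T)) * (n⁻¹ * ℓ ^ 2)) :=
    mul_le_mul_of_nonneg_left (mul_le_mul_of_nonneg_left h1 (Real.exp_pos _).le) hT0.le
  have b4 : T * (Real.exp (-(4 * |κ| * T)) * (2 * ν)) ≤ T * (1 * (2 * ν)) :=
    mul_le_mul_of_nonneg_left (mul_le_mul_of_nonneg_right a3 (by linarith)) hT0.le
  have b5 : T * (Real.exp (-(4 * (K₁ * T))) * n) ≤ T * (Real.exp (-(4 * |κ| * T)) * n) :=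
    mul_le_mul_of_nonneg_left (mul_le_mul_of_nonneg_right a1 hn.le) hT0.le
  have b6 := mul_le_mul_of_nonneg_left (exp_diff hx0 hKT) (show 0 ≤ n * T by positivity)
  have b7 : n * T * (7 * Real.exp 3 * (K₁ * T)) = 7 * Real.exp 3 * n * K₁ * T ^ 2 := by ring
  rw [b7] at b6
  nlinarith [b1, b2, b3, b4, b5, b6]

/-- (E4c), in terms of the drop `ν = ν_T(y)`: `β = (P_T w)(y) + δ`, `ℓ = (Δ P_T w)(y)` -/
theorem E4c_nu (hC : IsGamma C) (hn : 0 < n) (hB : C.BE κ n) (hφ : Vale.Agent.P233.Cen C φ)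
    (hT : ∀ t, 0 < t → C.P t w ∈ C.TestI) (hw : w ∈ C.W) (hu : u ∈ C.TestI)
    {ℓ e₁ e₃ K₁ ν β Y : ℝ}
    (hℓ : ∀ r, 0 < r → r < T → I (φ r * C.lap (C.P (T - r) w)) = ℓ)
    (hτ : 0 < τ) (hτT : τ < T) (hK : |κ| ≤ K₁) (hKT : K₁ * T ≤ 1)
    (hν : 0 ≤ ν) (hℓν : n - ν ≤ ℓ) (hE : I (φ T * C.Γ w w) ≤ 2 * β)
    (hβ : β ≤ n * T * Real.exp (K₁ * T))
    (he1 : ∀ s, 0 < s → s < τ →
      |2 * n⁻¹ * I (φ s * (C.lap (C.P (T - s) w) * C.lap u)) + I (φ s * C.Γ (C.P (T - s) w) (C.lap u))|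
        ≤ e₁)
    (he3 : ∀ s, 0 < s → s < τ → |I (φ s * C.Γ u (C.lap u))| ≤ e₃)
    (hY : I (φ τ * C.Γ u u) + 2 * Real.exp 4 * τ * e₃ ≤ Y) :
    |I (φ τ * C.Γ (C.P (T - τ) w) u)|
      ≤ 2 * Real.sqrt ((2 * T * ν + 7 * Real.exp 3 * n * K₁ * T ^ 2) * Y)
        + Real.exp 4 * τ * e₁ := by
  have hT0 : 0 < T := hτ.trans hτT
  have hK0 : 0 ≤ K₁ := (abs_nonneg κ).trans hK
  obtain ⟨hX0, hmain⟩ := E4c_sqrt hC hn hB hφ hT hw hu hℓ hτ hτT he1 he3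
  have hX := X_le (κ := κ) hn hT0 hK hK0 hKT hν hℓν hE hβ
  have he10 : 0 ≤ e₁ := (abs_nonneg _).trans (he1 (τ / 2) (by linarith) (by linarith))
  have he30 : 0 ≤ e₃ := (abs_nonneg _).trans (he3 (τ / 2) (by linarith) (by linarith))
  have hKT' : |κ| * T ≤ 1 := (mul_le_mul_of_nonneg_right hK hT0.le).trans hKT
  have hexp : Real.exp (4 * |κ| * T) ≤ Real.exp 4 := Real.exp_le_exp.2 (by linarith)
  have g1 : τ * (Real.exp (4 * |κ| * T) * e₃) ≤ Real.exp 4 * τ * e₃ := by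
    have := mul_le_mul_of_nonneg_left (mul_le_mul_of_nonneg_right hexp he30) hτ.le
    linarith
  have g2 : τ * (Real.exp (4 * |κ| * T) * e₁) ≤ Real.exp 4 * τ * e₁ := by
    have := mul_le_mul_of_nonneg_left (mul_le_mul_of_nonneg_right hexp he10) hτ.le
    linarith
  have hUn : 0 ≤ I (φ τ * C.Γ u u) :=
    I_nonneg (mul_nonneg (hφ.nonneg τ hτ) (hC.nonneg _ (hC.test_A hu.1).1))
  have g3 : 0 ≤ τ * (Real.exp (4 * |κ| * T) * e₃) := by positivity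
  refine hmain.trans (add_le_add (mul_le_mul_of_nonneg_left (Real.sqrt_le_sqrt ?_) (by norm_num)) g2)
  refine mul_le_mul hX ?_ (by linarith) (hX0.trans hX)
  have g4 : 2 * (2⁻¹ * I (φ τ * C.Γ u u)) = I (φ τ * C.Γ u u) := by ring
  have g5 : 0 ≤ Real.exp 4 * τ * e₃ := by positivity
  linarith

end Vale.Agent.P242.H924
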