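import Vale.Agent.P233.H103.Semi5

/-! P242, A-E4: derivative in time of `s ↦ ∫ σ_s Γ(b_s,u_s)`. -/

open MeasureTheory Filter Topology
open scoped ENNReal NNReal InnerProductSpace

namespace Vale.Agent.P242.H924

open Vale.Agent.P233

variable {M : Type*} [MeasurableSpace M] {m : Measure M} {C : Calc m}

/-- `‖Γ(a,u)‖₂² ≤ L E(a)` when `Γ(u,u) ≤ L`. -/
theorem I_Γ_sq_le (hD : IsDir C) {a u : M →ₘ[m] ℝ} {L : ℝ} (ha : a ∈ C.W) (hu : u ∈ C.W)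
    (hL : ∀ᵐ x ∂m, C.Γ u u x ≤ L) : I (C.Γ a u ^ 2) ≤ L * I (C.Γ a a) := by
  rw [← I_smul]
  have hut : MemLp (C.Γ u u) ∞ m := by
    refine mem_top_iff.2 ⟨L, ?_⟩
    filter_upwards [hL, hD.Γ_nonneg_ae hu] with x h1 h2
    rwa [abs_of_nonneg h2]
  have h2 : MemLp (C.Γ a u) 2 m := by
    rw [hD.symm _ ha _ hu]
    exact hD.Γ_mem2 hu hut ha
  refine I_mono (mem_sq h2) (mem_smul _ (hD.mem1 _ ha)) ?_
  rw [le_iff_ae]
  filter_upwards [hL, hD.Γ_cs_ae ha hu, hD.Γ_nonneg_ae ha, sq_ae (C.Γ a u),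
    smul_ae (C.Γ a a) L] with x h1 h2 h3 h4 h5
  rw [h4, h5]
  calc C.Γ a u x ^ 2 ≤ C.Γ a a x * C.Γ u u x := h2
    _ ≤ C.Γ a a x * L := mul_le_mul_of_nonneg_left h1 h3
    _ = L * C.Γ a a x := mul_comm _ _

theorem mem_top_of_le (hD : IsDir C) {u : M →ₘ[m] ℝ} {L : ℝ} (hu : u ∈ C.W)
    (hL : ∀ᵐ x ∂m, C.Γ u u x ≤ L) : MemLp (C.Γ u u) ∞ m := by
  refine mem_top_iff.2 ⟨L, ?_⟩
  filter_upwards [hL, hD.Γ_nonneg_ae hu] with x h1 h2
  rwa [abs_of_nonneg h2]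

/-- derivative of `r ↦ ∫ σ_r Γ(b_r,u_r)`, global families -/
theorem hasDeriv_Γ_aux (hD : IsDir C) {σ b u : ℝ → M →ₘ[m] ℝ} {σ' b' u' : M →ₘ[m] ℝ} {s L : ℝ}
    (hσ : ∀ r, MemLp (σ r) 2 m) (hσ' : MemLp σ' 2 m)
    (hb : ∀ r, b r ∈ C.W) (hb' : b' ∈ C.W) (hu : ∀ r, u r ∈ C.W) (hu' : u' ∈ C.W)
    (dσ : Tendsto (fun r => I (((r - s)⁻¹ • (σ r - σ s) - σ') ^ 2)) (𝓝[≠] s) (𝓝 0))
    (db : Tendsto (fun r => C.nrm2 ((r - s)⁻¹ • (b r - b s) - b')) (𝓝[≠] s) (𝓝 0))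
    (du : Tendsto (fun r => C.nrm2 ((r - s)⁻¹ • (u r - u s) - u')) (𝓝[≠] s) (𝓝 0))
    (Lu : ∀ r, ∀ᵐ x ∂m, C.Γ (u r) (u r) x ≤ L)
    (Lb : ∀ᵐ x ∂m, C.Γ (b s) (b s) x ≤ L) (Lb' : ∀ᵐ x ∂m, C.Γ b' b' x ≤ L) :
    HasDerivAt (fun r => I (σ r * C.Γ (b r) (u r)))
      (I (σ' * C.Γ (b s) (u s)) + I (σ s * (C.Γ b' (u s) + C.Γ (b s) u'))) s := by
  rw [hasDerivAt_iff_tendsto_slope]
  have hsub : Tendsto (fun r : ℝ => (r - s) ^ 2) (𝓝[≠] s) (𝓝 0) := by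
    have h1 : Tendsto (fun r : ℝ => (r - s) ^ 2) (𝓝 s) (𝓝 ((s - s) ^ 2)) :=
      ((continuous_id.sub continuous_const).pow 2).tendsto s
    rw [sub_self, zero_pow two_ne_zero] at h1
    exact h1.mono_left nhdsWithin_le_nhds
  -- energy convergence from derivative
  have eng : ∀ {v : ℝ → M →ₘ[m] ℝ} {v' : M →ₘ[m] ℝ}, (∀ r, v r ∈ C.W) → v' ∈ C.W →
      Tendsto (fun r => C.nrm2 ((r - s)⁻¹ • (v r - v s) - v')) (𝓝[≠] s) (𝓝 0) →
      Tendsto (fun r => I (C.Γ ((r - s)⁻¹ • (v r - v s) - v') ((r - s)⁻¹ • (v r - v s) - v')))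
        (𝓝[≠] s) (𝓝 0) ∧
      Tendsto (fun r => I (C.Γ (v r - v s) (v r - v s))) (𝓝[≠] s) (𝓝 0) := by
    intro v v' hv hv' h
    have hq : ∀ r, (r - s)⁻¹ • (v r - v s) - v' ∈ C.W := fun r =>
      hD.sub_mem (hD.smul_mem _ _ (hD.sub_mem (hv r) (hv s))) hv'
    have h1 : Tendsto (fun r => I (C.Γ ((r - s)⁻¹ • (v r - v s) - v')
        ((r - s)⁻¹ • (v r - v s) - v'))) (𝓝[≠] s) (𝓝 0) :=
      squeeze_zero (fun r => hD.E_nonneg (hq r)) (fun r => hD.E_le_nrm2 _) h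
    refine ⟨h1, ?_⟩
    have h2 : Tendsto (fun r => (r - s) ^ 2 * (2 * I (C.Γ ((r - s)⁻¹ • (v r - v s) - v')
        ((r - s)⁻¹ • (v r - v s) - v')) + 2 * I (C.Γ v' v'))) (𝓝[≠] s) (𝓝 0) := by
      have := hsub.mul ((h1.const_mul 2).add_const (2 * I (C.Γ v' v')))
      simpa using this
    refine squeeze_zero' (Eventually.of_forall fun r => hD.E_nonneg (hD.sub_mem (hv r) (hv s)))
      ?_ h2
    filter_upwards [self_mem_nhdsWithin] with r hr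
    have hrs : r - s ≠ 0 := sub_ne_zero.2 hr
    have e1 : v r - v s = (r - s) • (((r - s)⁻¹ • (v r - v s) - v') + v') := by
      rw [sub_add_cancel, smul_smul, mul_inv_cancel₀ hrs, one_smul]
    have e2 : I (C.Γ (v r - v s) (v r - v s)) = (r - s) ^ 2 *
        I (C.Γ (((r - s)⁻¹ • (v r - v s) - v') + v') (((r - s)⁻¹ • (v r - v s) - v') + v')) := by
      rw [← hD.E_smul _ (hD.add_mem _ (hq r) _ hv'), ← e1]
    rw [e2]
    exact mul_le_mul_of_nonneg_left (hD.E_add_le (hq r) hv') (sq_nonneg _)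
  obtain ⟨b1, b2⟩ := eng hb hb' db
  obtain ⟨u1, u2⟩ := eng hu hu' du
  have hL0 : ∀ r, ∀ᵐ x ∂m, 0 ≤ C.Γ (u r) (u r) x := fun r => hD.Γ_nonneg_ae (hu r)
  have mu : ∀ r, MemLp (C.Γ (u r) (u r)) ∞ m := fun r => mem_top_of_le hD (hu r) (Lu r)
  have mb : MemLp (C.Γ (b s) (b s)) ∞ m := mem_top_of_le hD (hb s) Lb
  have mb' : MemLp (C.Γ b' b') ∞ m := mem_top_of_le hD hb' Lb'
  have m2u : ∀ r, ∀ {a : M →ₘ[m] ℝ}, a ∈ C.W → MemLp (C.Γ a (u r)) 2 m := fun r a ha => by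
    rw [hD.symm _ ha _ (hu r)]; exact hD.Γ_mem2 (hu r) (mu r) ha
  have hq : ∀ r, (r - s)⁻¹ • (b r - b s) ∈ C.W := fun r =>
    hD.smul_mem _ _ (hD.sub_mem (hb r) (hb s))
  have hp : ∀ r, (r - s)⁻¹ • (u r - u s) ∈ C.W := fun r =>
    hD.smul_mem _ _ (hD.sub_mem (hu r) (hu s))
  -- first product
  have l1 : Tendsto (fun r => I (((r - s)⁻¹ • (σ r - σ s)) * C.Γ (b r) (u r))) (𝓝[≠] s)
      (𝓝 (I (σ' * C.Γ (b s) (u s)))) := by
    refine tendsto_I_mul (fun r => mem_smul _ (mem_sub (hσ r) (hσ s))) hσ'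
      (fun r => m2u r (hb r)) (m2u s (hb s)) dσ ?_
    have h3 : Tendsto (fun r => 2 * (L * I (C.Γ (b r - b s) (b r - b s)))
        + 2 * (L * I (C.Γ (u r - u s) (u r - u s)))) (𝓝[≠] s) (𝓝 0) := by
      have := ((b2.const_mul L).const_mul 2).add ((u2.const_mul L).const_mul 2)
      simpa using this
    refine squeeze_zero (fun r => I_sq_nonneg _) (fun r => ?_) h3
    have hbr := hD.sub_mem (hb r) (hb s)
    have hur := hD.sub_mem (hu r) (hu s)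
    have e : C.Γ (b r) (u r) - C.Γ (b s) (u s) = C.Γ (b r - b s) (u r) + C.Γ (u r - u s) (b s) := by
      rw [hD.Γ_sub_left (hb r) (hb s) (hu r), hD.Γ_sub_left (hu r) (hu s) (hb s),
        hD.symm _ (hu r) _ (hb s), hD.symm _ (hu s) _ (hb s)]
      abel
    rw [e]
    refine (I_sq_add_le (m2u r hbr) ?_).trans ?_
    · rw [hD.symm _ hur _ (hb s)]; exact hD.Γ_mem2 (hb s) mb hur
    · have g1 := I_Γ_sq_le hD hbr (hu r) (Lu r)
      have g2 := I_Γ_sq_le hD hur (hb s) Lb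
      linarith
  -- second product
  have l2 : Tendsto (fun r => I (σ s * (C.Γ ((r - s)⁻¹ • (b r - b s)) (u r)
      + C.Γ (b s) ((r - s)⁻¹ • (u r - u s))))) (𝓝[≠] s)
      (𝓝 (I (σ s * (C.Γ b' (u s) + C.Γ (b s) u')))) := by
    have hc : Tendsto (fun _ : ℝ => I ((σ s - σ s) ^ 2)) (𝓝[≠] s) (𝓝 0) := by
      have : I ((σ s - σ s) ^ 2) = 0 := by
        rw [sub_self, zero_pow two_ne_zero, I_zero]
      rw [this]; exact tendsto_const_nhds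
    refine tendsto_I_mul (fun _ => hσ s) (hσ s)
      (fun r => mem_add (m2u r (hq r)) (hD.Γ_mem2 (hb s) mb (hp r)))
      (mem_add (m2u s hb') (hD.Γ_mem2 (hb s) mb hu')) hc ?_
    have h3 : Tendsto (fun r => 2 * (2 * (L * I (C.Γ ((r - s)⁻¹ • (b r - b s) - b')
        ((r - s)⁻¹ • (b r - b s) - b'))) + 2 * (L * I (C.Γ (u r - u s) (u r - u s))))
        + 2 * (L * I (C.Γ ((r - s)⁻¹ • (u r - u s) - u') ((r - s)⁻¹ • (u r - u s) - u'))))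
        (𝓝[≠] s) (𝓝 0) := by
      have := ((((b1.const_mul L).const_mul 2).add ((u2.const_mul L).const_mul 2)).const_mul
        2).add ((u1.const_mul L).const_mul 2)
      simpa using this
    refine squeeze_zero (fun r => I_sq_nonneg _) (fun r => ?_) h3
    have hbr := hD.sub_mem (hq r) hb'
    have hur := hD.sub_mem (hu r) (hu s)
    have hpr := hD.sub_mem (hp r) hu'
    have e : C.Γ ((r - s)⁻¹ • (b r - b s)) (u r) + C.Γ (b s) ((r - s)⁻¹ • (u r - u s))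
        - (C.Γ b' (u s) + C.Γ (b s) u')
        = (C.Γ ((r - s)⁻¹ • (b r - b s) - b') (u r) + C.Γ (u r - u s) b')
          + C.Γ ((r - s)⁻¹ • (u r - u s) - u') (b s) := by
      rw [hD.Γ_sub_left (hq r) hb' (hu r), hD.Γ_sub_left (hu r) (hu s) hb',
        hD.Γ_sub_left (hp r) hu' (hb s), hD.symm _ (hu r) _ hb', hD.symm _ (hu s) _ hb',
        hD.symm _ (hp r) _ (hb s), hD.symm _ hu' _ (hb s)]
      abel
    rw [e]
    have k1 := m2u r hbr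
    have k2 : MemLp (C.Γ (u r - u s) b') 2 m := by
      rw [hD.symm _ hur _ hb']; exact hD.Γ_mem2 hb' mb' hur
    have k3 : MemLp (C.Γ ((r - s)⁻¹ • (u r - u s) - u') (b s)) 2 m := by
      rw [hD.symm _ hpr _ (hb s)]; exact hD.Γ_mem2 (hb s) mb hpr
    have g0 := I_sq_add_le (mem_add k1 k2) k3
    have g1 := I_sq_add_le k1 k2
    have g2 := I_Γ_sq_le hD hbr (hu r) (Lu r)
    have g3 := I_Γ_sq_le hD hur hb' Lb'
    have g4 := I_Γ_sq_le hD hpr (hb s) Lb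
    linarith
  have l3 := l1.add l2
  refine l3.congr fun r => ?_
  rw [slope_def_module, smul_eq_mul]
  have j1 : MemLp (((r - s)⁻¹ • (σ r - σ s)) * C.Γ (b r) (u r)) 1 m :=
    mem_mul_22 (mem_smul _ (mem_sub (hσ r) (hσ s))) (m2u r (hb r))
  have j2 : MemLp (σ s * (C.Γ ((r - s)⁻¹ • (b r - b s)) (u r)
      + C.Γ (b s) ((r - s)⁻¹ • (u r - u s)))) 1 m :=
    mem_mul_22 (hσ s) (mem_add (m2u r (hq r)) (hD.Γ_mem2 (hb s) mb (hp r)))
  rw [← I_add j1 j2, ← I_sub (mem_mul_22 (hσ r) (m2u r (hb r))) (mem_mul_22 (hσ s) (m2u s (hb s))),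
    ← I_smul]
  congr 1
  rw [hD.smul_left _ _ (hD.sub_mem (hb r) (hb s)) _ (hu r),
    hD.Γ_smul_right _ (hb s) (hD.sub_mem (hu r) (hu s)), hD.Γ_sub_left (hb r) (hb s) (hu r),
    hD.Γ_sub_right (hb s) (hu r) (hu s)]
  algebra

/-- derivative of `r ↦ ∫ σ_r Γ(b_r,u_r)` -/
theorem hasDeriv_Γ (hD : IsDir C) {σ b u : ℝ → M →ₘ[m] ℝ} {σ' b' u' : M →ₘ[m] ℝ} {s L : ℝ}
    (hσ : ∀ r, MemLp (σ r) 2 m) (hσ' : MemLp σ' 2 m)
    (hb : ∀ᶠ r in 𝓝 s, b r ∈ C.W) (hb' : b' ∈ C.W) (hu : ∀ᶠ r in 𝓝 s, u r ∈ C.W) (hu' : u' ∈ C.W)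
    (dσ : Tendsto (fun r => I (((r - s)⁻¹ • (σ r - σ s) - σ') ^ 2)) (𝓝[≠] s) (𝓝 0))
    (db : Tendsto (fun r => C.nrm2 ((r - s)⁻¹ • (b r - b s) - b')) (𝓝[≠] s) (𝓝 0))
    (du : Tendsto (fun r => C.nrm2 ((r - s)⁻¹ • (u r - u s) - u')) (𝓝[≠] s) (𝓝 0))
    (Lu : ∀ᶠ r in 𝓝 s, ∀ᵐ x ∂m, C.Γ (u r) (u r) x ≤ L)
    (Lb : ∀ᵐ x ∂m, C.Γ (b s) (b s) x ≤ L) (Lb' : ∀ᵐ x ∂m, C.Γ b' b' x ≤ L) :
    HasDerivAt (fun r => I (σ r * C.Γ (b r) (u r)))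
      (I (σ' * C.Γ (b s) (u s)) + I (σ s * (C.Γ b' (u s) + C.Γ (b s) u'))) s := by
  classical
  have hev := (hb.and hu).and Lu
  set G : Set ℝ := {r | (b r ∈ C.W ∧ u r ∈ C.W) ∧ ∀ᵐ x ∂m, C.Γ (u r) (u r) x ≤ L} with hG
  have hsG : s ∈ G := hev.self_of_nhds
  set b2 : ℝ → M →ₘ[m] ℝ := fun r => if r ∈ G then b r else b s with hb2
  set u2 : ℝ → M →ₘ[m] ℝ := fun r => if r ∈ G then u r else u s with hu2
  have eb : b2 s = b s := by rw [hb2]; simp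
  have eu : u2 s = u s := by rw [hu2]; simp
  have hev' : ∀ᶠ r in 𝓝[≠] s, r ∈ G := nhdsWithin_le_nhds hev
  have key := hasDeriv_Γ_aux (b := b2) (u := u2) (σ := σ) (s := s) (L := L) hD hσ hσ'
    (fun r => by
      rw [hb2]; dsimp only
      split_ifs with h
      · exact h.1.1
      · exact hsG.1.1) hb'
    (fun r => by
      rw [hu2]; dsimp only
      split_ifs with h
      · exact h.1.2
      · exact hsG.1.2) hu' dσ
    (db.congr' (by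
      filter_upwards [hev'] with r hr
      rw [eb, hb2]; simp only [if_pos hr]))
    (du.congr' (by
      filter_upwards [hev'] with r hr
      rw [eu, hu2]; simp only [if_pos hr]))
    (fun r => by
      rw [hu2]; dsimp only
      split_ifs with h
      · exact h.2
      · exact hsG.2) (by rw [eb]; exact Lb) Lb'
  rw [eb, eu] at key
  refine key.congr_of_eventuallyEq ?_
  filter_upwards [hev] with r hr
  have hr' : r ∈ G := hr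
  rw [hb2, hu2]; simp only [if_pos hr']

end Vale.Agent.P242.H924
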