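import Vale.Agent.P242.H924.Base

/-! P242, A-E4, (E4c) in the vocabulary of `H71/Voc.lean` (helper924). -/

set_option linter.all false

open MeasureTheory Filter Topology Set
open scoped ENNReal NNReal

universe u

namespace Vale.Agent.P242.H924

open Vale.Agent.P233 Vale.Agent.P233.RA Vale.Agent.P242.H71 Vale.Agent.P242.H990

section cs

variable {M : Type*} [MeasurableSpace M] {m : Measure M} {C : Calc m} {ζ b u f g : M →ₘ[m] ℝ}

theorem Γ_cs_w (hC : IsGamma C) (hb : b ∈ C.W) (hu : u ∈ C.W) (hζ : MemLp ζ ∞ m) (h0 : 0 ≤ ζ) :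
    I (ζ * C.Γ b u) ^ 2 ≤ I (ζ * C.Γ b b) * I (ζ * C.Γ u u) := by
  have hD := hC.toIsDir
  have k1 := mem_mul_top hζ (hD.Γ_mem1 hb hb)
  have k2 := mem_mul_top hζ (hD.Γ_mem1 hb hu)
  have k3 := mem_mul_top hζ (hD.Γ_mem1 hu hu)
  refine disc_of_forall fun c => ?_
  have h1 := I_nonneg (mul_nonneg h0 (hC.nonneg _ (hC.add_mem b hb _ (hC.smul_mem c u hu))))
  rw [hD.Γ_expand c hb hu, mul_add, mul_add, mul_smul_comm, mul_smul_comm,
    I_add (mem_add k1 (mem_smul _ k2)) (mem_smul _ k3), I_add k1 (mem_smul _ k2), I_smul,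
    I_smul] at h1
  exact h1

theorem mul_cs_w (hf : MemLp f 2 m) (hg : MemLp g 2 m) (hζ : MemLp ζ ∞ m) (h0 : 0 ≤ ζ) :
    I (ζ * (f * g)) ^ 2 ≤ I (ζ * f ^ 2) * I (ζ * g ^ 2) := by
  have k1 : MemLp (ζ * f ^ 2 : M →ₘ[m] ℝ) 1 m := mem_mul_top hζ (mem_sq hf)
  have k2 : MemLp (ζ * (f * g) : M →ₘ[m] ℝ) 1 m := mem_mul_top hζ (mem_mul_22 hf hg)
  have k3 : MemLp (ζ * g ^ 2 : M →ₘ[m] ℝ) 1 m := mem_mul_top hζ (mem_sq hg)
  refine disc_of_forall fun c => ?_
  have h1 := I_nonneg (mul_nonneg h0 (sq_nonneg' (f + c • g)))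
  have e : ζ * (f + c • g) ^ 2 = ζ * f ^ 2 + (2 * c) • (ζ * (f * g)) + (c ^ 2) • (ζ * g ^ 2) := by
    algebra
  rw [e, I_add (mem_add k1 (mem_smul _ k2)) (mem_smul _ k3), I_add k1 (mem_smul _ k2), I_smul,
    I_smul] at h1
  exact h1

theorem abs_le_of_sq_le_mul {x a b A B : ℝ} (ha : 0 ≤ a) (hb : 0 ≤ b) (h : x ^ 2 ≤ A * B)
    (hA0 : 0 ≤ A) (hA : A ≤ a ^ 2) (hB : B ≤ b ^ 2) (hB0 : 0 ≤ B) : |x| ≤ a * b := by
  refine abs_le_of_sq_le_sq ?_ (by positivity)
  calc x ^ 2 ≤ A * B := h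
    _ ≤ a ^ 2 * b ^ 2 := mul_le_mul hA hB hB0 (sq_nonneg a)
    _ = (a * b) ^ 2 := by ring

end cs

variable {M : Type u} [MetricSpace M] [CompleteSpace M] [SecondCountableTopology M]
  [MeasurableSpace M] [BorelSpace M] {m : Measure M} {n : ℕ} {K A : ℝ} {o : M} {p : ℝ → M → M → ℝ}

/-- `P_T |∇w_y|²(x) ≤ 2 β` -/
theorem grad_wy_le (h : Env m n K o A p) (y x : M) {T : ℝ} (hT : 0 < T) :
    I (ph m p T x * (sob m).Γ (wy m y) (wy m y)) ≤ 2 * (PP m p T x (wy m y) + 1 / 2) := by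
  obtain ⟨⟨θ, hN⟩, hC, _, _, _⟩ := facts h.hyp
  have hwA := wy_A hN y
  have hφ := cen hC h x
  have k1 : MemLp (ph m p T x * (sob m).Γ (wy m y) (wy m y)) 1 m :=
    mem_mul_top (hφ.top T hT) (hC.mem1 _ hwA.1)
  have k2 : MemLp (ph m p T x * wy m y) 1 m := mem_mul_22 (hφ.mem2 T hT) (hC.memLp _ hwA.1)
  have k3 := hφ.mem1 T hT
  have key : I (ph m p T x * (sob m).Γ (wy m y) (wy m y))
      ≤ I ((2 : ℝ) • (ph m p T x * wy m y) + ph m p T x) := by
    refine I_mono k1 (mem_add (mem_smul _ k2) k3) ?_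
    rw [le_iff_ae]
    filter_upwards [wy_grad hN y, mul_ae (ph m p T x) ((sob m).Γ (wy m y) (wy m y)),
      add_ae ((2 : ℝ) • (ph m p T x * wy m y)) (ph m p T x),
      smul_ae (ph m p T x * wy m y) (2 : ℝ), mul_ae (ph m p T x) (wy m y),
      nonneg_iff_ae.1 (hφ.nonneg T hT)] with z a1 a2 a3 a4 a5 a6
    rw [a2, a3, a4, a5]
    have := mul_le_mul_of_nonneg_left a1 a6
    linarith
  rw [I_add (mem_smul _ k2) k3, I_smul, hφ.mass T hT] at key
  unfold PP
  linarith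

/-- energy and Laplacian of `P_{T-s} w_y` against the kernel at `y` -/
theorem flow_bd (h : Env m n K o A p) (y : M) {s t : ℝ} (hs : 0 < s) (hst : s < t)
    (hKt : (|K| + 1) * (2 * t) ≤ 1) :
    I (ph m p s y * (sob m).Γ ((sob m).P (2 * t - s) (wy m y)) ((sob m).P (2 * t - s) (wy m y)))
      ≤ 4 * Real.exp 3 * n * t ∧
    I (ph m p s y * (sob m).lap ((sob m).P (2 * t - s) (wy m y)) ^ 2) ≤ 2 * Real.exp 5 * n ^ 2 := by
  obtain ⟨⟨θ, hN⟩, hC, hBE, hsf, hn⟩ := facts h.hyp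
  have ht : 0 < t := hs.trans hst
  have hwA := wy_A hN y
  have hφ := cen hC h y
  have hr : 0 < 2 * t - s := by linarith
  have h1 := H254.gradLap_weak hC hn hBE hr hwA (hφ.nonneg s hs) (hφ.mem2 s hs) (hφ.top s hs)
  have e0 : (sob m).P (2 * t - s) (ph m p s y) = ph m p (2 * t) y := by
    have := hφ.semi s (2 * t - s) hs hr.le
    rw [this]; congr 1; ring
  rw [e0] at h1
  have h2 := grad_wy_le h y y (show 0 < 2 * t by linarith)
  have h3 := beta_le h y (show 0 < 2 * t by linarith)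
  have hK0 := abs_nonneg K
  have hKt' : |K| * (2 * t) ≤ 1 := by nlinarith
  -- right-hand side
  have e1 : Real.exp (-(2 * K * (2 * t - s))) ≤ Real.exp 2 := by
    apply Real.exp_le_exp.2
    have a1 : -K * (2 * t - s) ≤ |K| * (2 * t) :=
      (mul_le_mul_of_nonneg_right (neg_le_abs K) hr.le).trans
        (mul_le_mul_of_nonneg_left (by linarith) hK0)
    linarith
  have e2 : Real.exp ((|K| + 1) * (2 * t)) ≤ Real.exp 1 := Real.exp_le_exp.2 hKt
  have e21 : Real.exp 2 * Real.exp 1 = Real.exp 3 := by rw [← Real.exp_add]; norm_num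
  have hE0 : 0 ≤ I (ph m p (2 * t) y * (sob m).Γ (wy m y) (wy m y)) :=
    I_nonneg (mul_nonneg (hφ.nonneg _ (by linarith)) (hC.nonneg _ hwA.1))
  have h4 : I (ph m p (2 * t) y * (sob m).Γ (wy m y) (wy m y)) ≤ 4 * n * t * Real.exp 1 := by
    have a1 : n * (2 * t) * Real.exp ((|K| + 1) * (2 * t)) ≤ n * (2 * t) * Real.exp 1 :=
      mul_le_mul_of_nonneg_left e2 (by positivity)
    linarith
  have h5 : Real.exp (-(2 * K * (2 * t - s))) * I (ph m p (2 * t) y * (sob m).Γ (wy m y) (wy m y))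
      ≤ 4 * Real.exp 3 * n * t := by
    calc _ ≤ Real.exp 2 * (4 * n * t * Real.exp 1) :=
          mul_le_mul e1 h4 hE0 (Real.exp_pos 2).le
      _ = 4 * (Real.exp 2 * Real.exp 1) * n * t := by ring
      _ = 4 * Real.exp 3 * n * t := by rw [e21]
  have hb := hC.toIsDir.P_mem hr (hC.memLp _ hwA.1)
  have hA0 : 0 ≤ I (ph m p s y * (sob m).Γ ((sob m).P (2 * t - s) (wy m y))
      ((sob m).P (2 * t - s) (wy m y))) :=
    I_nonneg (mul_nonneg (hφ.nonneg s hs) (hC.nonneg _ hb))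
  have hL0 : 0 ≤ I (ph m p s y * (sob m).lap ((sob m).P (2 * t - s) (wy m y)) ^ 2) :=
    I_nonneg (mul_nonneg (hφ.nonneg s hs) (sq_nonneg' _))
  constructor
  · have : 0 ≤ 2 * (2 * t - s) / n * Real.exp (-(2 * |K| * (2 * t - s)))
        * I (ph m p s y * (sob m).lap ((sob m).P (2 * t - s) (wy m y)) ^ 2) := by positivity
    linarith
  · have h6 : 2 * t / n * Real.exp (-2)
        * I (ph m p s y * (sob m).lap ((sob m).P (2 * t - s) (wy m y)) ^ 2)
        ≤ 4 * Real.exp 3 * n * t := by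
      have a1 : Real.exp (-2) ≤ Real.exp (-(2 * |K| * (2 * t - s))) := by
        apply Real.exp_le_exp.2
        have : |K| * (2 * t - s) ≤ |K| * (2 * t) := mul_le_mul_of_nonneg_left (by linarith) hK0
        linarith
      have a2 : 2 * t / n ≤ 2 * (2 * t - s) / n := by
        apply div_le_div_of_nonneg_right _ hn.le
        linarith
      have a3 : 2 * t / n * Real.exp (-2) ≤ 2 * (2 * t - s) / n
          * Real.exp (-(2 * |K| * (2 * t - s))) :=
        mul_le_mul a2 a1 (Real.exp_pos _).le (by positivity)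
      have a4 := mul_le_mul_of_nonneg_right a3 hL0
      linarith
    set Lp := I (ph m p s y * (sob m).lap ((sob m).P (2 * t - s) (wy m y)) ^ 2) with hLp
    have e5 : Real.exp 2 * Real.exp (-2) = 1 := by rw [← Real.exp_add]; norm_num
    have e6 : Real.exp 2 * Real.exp 3 = Real.exp 5 := by rw [← Real.exp_add]; norm_num
    have h7 : Lp = n / (2 * t) * Real.exp 2 * (2 * t / n * Real.exp (-2) * Lp) := by
      have : n / (2 * t) * Real.exp 2 * (2 * t / n * Real.exp (-2) * Lp)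
          = (n / (2 * t) * (2 * t / n)) * (Real.exp 2 * Real.exp (-2)) * Lp := by ring
      rw [this, e5]
      field_simp
    rw [h7]
    calc n / (2 * t) * Real.exp 2 * (2 * t / n * Real.exp (-2) * Lp)
        ≤ n / (2 * t) * Real.exp 2 * (4 * Real.exp 3 * n * t) :=
          mul_le_mul_of_nonneg_left h6 (by positivity)
      _ = 2 * (Real.exp 2 * Real.exp 3) * n ^ 2 := by field_simp; ring
      _ = 2 * Real.exp 5 * n ^ 2 := by rw [e6]

/-- **(E4c)**: `P_t Γ(b_{y,t}, u)(y)` is controlled by the drop `ν_{2t}(y)`. -/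
theorem E4c_env (h : Env m n K o A p) (y : M) {t : ℝ} (ht : 0 < t)
    (hKt : (|K| + 1) * (2 * t) ≤ 1) {u : M →ₘ[m] ℝ} (hu : u ∈ (sob m).TestI) {a b L : ℝ}
    (ha0 : 0 ≤ a) (hb0 : 0 ≤ b) (hL0 : 0 ≤ L)
    (ha : ∀ s, 0 < s → s < t → PP m p s y ((sob m).lap u ^ 2) ≤ a ^ 2)
    (hb : ∀ s, 0 < s → s < t → PP m p s y ((sob m).Γ ((sob m).lap u) ((sob m).lap u)) ≤ b ^ 2)
    (hL : ∀ᵐ x ∂m, (sob m).Γ u u x ≤ L ^ 2) :
    |PP m p t y ((sob m).Γ (bb m y t) u)|
      ≤ 2 * √((4 * t * nu m n K p y (2 * t) y + 28 * Real.exp 3 * n * (|K| + 1) * t ^ 2)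
          * (PP m p t y ((sob m).Γ u u) + 2 * Real.exp 4 * t * (L * b)))
        + Real.exp 4 * t * (2 * √(2 * Real.exp 5) * a + √(4 * Real.exp 3 * n * t) * b) := by
  obtain ⟨⟨θ, hN⟩, hC, hBE, hsf, hn⟩ := facts h.hyp
  have hBi := hC.bei hn hBE
  have hwA := wy_A hN y
  have hw2 := hC.memLp _ hwA.1
  have hφ := cen hC h y
  have hT : ∀ r, 0 < r → (sob m).P r (wy m y) ∈ (sob m).TestI := fun r hr =>
    H715.P_testI_pos hC hn hBE hr hw2 hwA.2
  have uW := (hC.test_A hu.1).1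
  have ulW := hC.test_lap_mem hu.1
  have hT0 : 0 < 2 * t := by linarith
  have hℓ : ∀ r, 0 < r → r < 2 * t → I (ph m p r y * (sob m).lap ((sob m).P (2 * t - r) (wy m y)))
      = I ((sob m).lap (ph m p (2 * t) y) * wy m y) := fun r h1 h2 => ell_eq h y y h1 h2
  have hν := nu_nonneg h y y hT0
  have hβ0 := beta_nonneg h y y hT0
  have hℓν : (n : ℝ) - nu m n K p y (2 * t) y ≤ I ((sob m).lap (ph m p (2 * t) y) * wy m y) := by
    have := nu_eq h y y hT0
    have hK0 : 0 ≤ (|K| + 1) * (PP m p (2 * t) y (wy m y) + 1 / 2) :=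
      mul_nonneg (by positivity) hβ0
    linarith
  have hE := grad_wy_le h y y hT0
  have hβ := beta_le h y hT0
  -- errors
  have he3 : ∀ s, 0 < s → s < t → |I (ph m p s y * (sob m).Γ u ((sob m).lap u))| ≤ L * b := by
    intro s h1 h2
    have c1 := Γ_cs_w hC uW ulW (hφ.top s h1) (hφ.nonneg s h1)
    refine abs_le_of_sq_le_mul hL0 hb0 c1 ?_ ?_ (hb s h1 h2) ?_
    · exact I_nonneg (mul_nonneg (hφ.nonneg s h1) (hC.nonneg _ uW))
    · have k1 : MemLp (ph m p s y * (sob m).Γ u u) 1 m :=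
        mem_mul_top (hφ.top s h1) (hC.mem1 _ uW)
      have := I_mono k1 (mem_smul (L ^ 2) (hφ.mem1 s h1)) (by
        rw [le_iff_ae]
        filter_upwards [hL, mul_ae (ph m p s y) ((sob m).Γ u u), smul_ae (ph m p s y) (L ^ 2),
          nonneg_iff_ae.1 (hφ.nonneg s h1)] with z a1 a2 a3 a4
        rw [a2, a3]
        have := mul_le_mul_of_nonneg_left a1 a4
        linarith)
      rw [I_smul, hφ.mass s h1, mul_one] at this
      exact this
    · exact I_nonneg (mul_nonneg (hφ.nonneg s h1) (hC.nonneg _ ulW))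
  have he1 : ∀ s, 0 < s → s < t →
      |2 * (n : ℝ)⁻¹ * I (ph m p s y * ((sob m).lap ((sob m).P (2 * t - s) (wy m y)) * (sob m).lap u))
        + I (ph m p s y * (sob m).Γ ((sob m).P (2 * t - s) (wy m y)) ((sob m).lap u))|
        ≤ 2 * √(2 * Real.exp 5) * a + √(4 * Real.exp 3 * n * t) * b := by
    intro s h1 h2
    obtain ⟨f1, f2⟩ := flow_bd h y h1 h2 hKt
    have hbT := hT (2 * t - s) (by linarith)
    have bW := (hC.test_A hbT.1).1
    have bl2 := (hC.test_isLap hbT.1).2.1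
    have ul2 := (hC.test_isLap hu.1).2.1
    have g1 : |I (ph m p s y * ((sob m).lap ((sob m).P (2 * t - s) (wy m y)) * (sob m).lap u))|
        ≤ (√(2 * Real.exp 5) * n) * a := by
      have c1 := mul_cs_w bl2 ul2 (hφ.top s h1) (hφ.nonneg s h1)
      refine abs_le_of_sq_le_mul (by positivity) ha0 c1
        (I_nonneg (mul_nonneg (hφ.nonneg s h1) (sq_nonneg' _))) ?_ (ha s h1 h2)
        (I_nonneg (mul_nonneg (hφ.nonneg s h1) (sq_nonneg' _)))
      rw [mul_pow, Real.sq_sqrt (by positivity)]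
      exact f2
    have g2 : |I (ph m p s y * (sob m).Γ ((sob m).P (2 * t - s) (wy m y)) ((sob m).lap u))|
        ≤ √(4 * Real.exp 3 * n * t) * b := by
      have c1 := Γ_cs_w hC bW ulW (hφ.top s h1) (hφ.nonneg s h1)
      refine abs_le_of_sq_le_mul (by positivity) hb0 c1
        (I_nonneg (mul_nonneg (hφ.nonneg s h1) (hC.nonneg _ bW))) ?_ (hb s h1 h2)
        (I_nonneg (mul_nonneg (hφ.nonneg s h1) (hC.nonneg _ ulW)))
      rw [Real.sq_sqrt (by positivity)]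
      exact f1
    refine (abs_add_le _ _).trans (add_le_add ?_ g2)
    rw [abs_mul, abs_of_nonneg (by positivity : (0 : ℝ) ≤ 2 * (n : ℝ)⁻¹)]
    calc 2 * (n : ℝ)⁻¹ * |I (ph m p s y * ((sob m).lap ((sob m).P (2 * t - s) (wy m y))
          * (sob m).lap u))|
        ≤ 2 * (n : ℝ)⁻¹ * ((√(2 * Real.exp 5) * n) * a) :=
          mul_le_mul_of_nonneg_left g1 (by positivity)
      _ = 2 * √(2 * Real.exp 5) * a := by field_simp
  have key := E4c_nu (φ := fun s => ph m p s y) (T := 2 * t) (τ := t) (K₁ := |K| + 1)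
    (ν := nu m n K p y (2 * t) y) (β := PP m p (2 * t) y (wy m y) + 1 / 2)
    (Y := PP m p t y ((sob m).Γ u u) + 2 * Real.exp 4 * t * (L * b))
    hC hn hBE hφ hT hwA.1 hu hℓ ht (by linarith) (by linarith [abs_nonneg K]) hKt hν hℓν hE hβ
    he1 he3 le_rfl
  have e2 : 2 * t - t = t := by ring
  rw [e2] at key
  have e3 : 2 * (2 * t) * nu m n K p y (2 * t) y + 7 * Real.exp 3 * n * (|K| + 1) * (2 * t) ^ 2
      = 4 * t * nu m n K p y (2 * t) y + 28 * Real.exp 3 * n * (|K| + 1) * t ^ 2 := by ring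
  rw [e3] at key
  exact key

end Vale.Agent.P242.H924
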