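import Vale.Agent.P242.H924.Deriv
import Vale.Agent.P233.H53.Stat

/-! P242, A-E4: derivatives of `s ↦ ∫ P_s σ Γ(P_{t-s} f, P_{t-s} g)` and `s ↦ ∫ P_s σ Γ(P_{t-s} f, u)`
in terms of `NN` and `QQ`. -/

open MeasureTheory Filter Topology
open scoped ENNReal NNReal InnerProductSpace

namespace Vale.Agent.P242.H924

open Vale.Agent.P233

variable {M : Type*} [MeasurableSpace M] {m : Measure M} {C : Calc m}

/-- `NN` minus the trace term -/
noncomputable def QN (C : Calc m) (κ n : ℝ) (f g ζ : M →ₘ[m] ℝ) : ℝ :=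
  C.NN κ f g ζ - n⁻¹ * I (ζ * (C.lap f * C.lap g))

theorem bound_le {v : M →ₘ[m] ℝ} (h : MemLp v ∞ m) : ∃ L : ℝ, 0 ≤ L ∧ ∀ᵐ x ∂m, v x ≤ L := by
  obtain ⟨L, hL⟩ := mem_top_iff.1 h
  refine ⟨|L|, abs_nonneg _, ?_⟩
  filter_upwards [hL] with x hx
  exact (le_abs_self _).trans (hx.trans (le_abs_self _))

section flow

variable {σ f g u : M →ₘ[m] ℝ} {κ s t : ℝ}

/-- the time derivative in `W` of `r ↦ P_{t-r} f` -/
theorem derivW_rev (hC : IsGamma C) (hf : MemLp f 2 m) (hst : s < t) :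
    Tendsto (fun r => C.nrm2 ((r - s)⁻¹ • (C.P (t - r) f - C.P (t - s) f)
      - (-C.lap (C.P (t - s) f)))) (𝓝[≠] s) (𝓝 0) := by
  have hD := hC.toIsDir
  set δ := (t - s) / 2 with hδ
  have hδ0 : 0 < δ := by rw [hδ]; linarith
  have h2δ : δ + δ = t - s := by rw [hδ]; ring
  have h1 := hD.P_isLap hδ0 hf
  have h2 : C.lap (C.P δ f) ∈ C.W := IsGamma.P_lap_mem hC hδ0 hf
  have h3 := hD.P_derivW hδ0.le h1 h2
  have h4 : Tendsto (fun r => t - r - δ) (𝓝[≠] s) (𝓝[Set.Ici 0 \ {δ}] δ) := by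
    rw [tendsto_nhdsWithin_iff]
    constructor
    · have h5 : Tendsto (fun r : ℝ => t - r - δ) (𝓝 s) (𝓝 (t - s - δ)) :=
        ((continuous_const.sub continuous_id).sub continuous_const).tendsto s
      have h6 : t - s - δ = δ := by linarith
      rw [h6] at h5
      exact h5.mono_left nhdsWithin_le_nhds
    · have h5 : ∀ᶠ r in 𝓝[≠] s, r < t - δ := nhdsWithin_le_nhds (gt_mem_nhds (by linarith))
      filter_upwards [h5, self_mem_nhdsWithin] with r hr hr'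
      refine ⟨by simp only [Set.mem_Ici]; linarith, ?_⟩
      simp only [Set.mem_singleton_iff]
      intro h6
      exact hr' (by simp only [Set.mem_singleton_iff]; linarith)
  refine (h3.comp h4).congr' ?_
  have h5 : ∀ᶠ r in 𝓝[≠] s, r < t - δ := nhdsWithin_le_nhds (gt_mem_nhds (by linarith))
  filter_upwards [h5] with r hr
  simp only [Function.comp]
  have e1 : C.P (t - r - δ) (C.P δ f) = C.P (t - r) f := by
    rw [hD.P_P (by linarith) hδ0.le hf]; congr 1; ring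
  have e2 : C.P δ (C.P δ f) = C.P (t - s) f := by
    rw [hD.P_P hδ0.le hδ0.le hf, h2δ]
  have e3 : C.P δ (C.lap (C.P δ f)) = C.lap (C.P (t - s) f) := by
    have := hD.P_lap_add hδ0.le hδ0 hf
    rw [h2δ] at this
    exact this.symm
  have e4 : t - r - δ - δ = -(r - s) := by linarith
  rw [e1, e2, e3, e4]
  have hW1 : C.P (t - r) f ∈ C.W := hD.P_mem (by linarith) hf
  have hW2 : C.P (t - s) f ∈ C.W := hD.P_mem (by linarith) hf
  have hW3 : C.lap (C.P (t - s) f) ∈ C.W := IsGamma.P_lap_mem hC (by linarith) hf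
  have hW4 := hD.sub_mem (hD.smul_mem (r - s)⁻¹ _ (hD.sub_mem hW1 hW2)) (hD.neg_mem hW3)
  rw [← hD.nrm2_neg hW4]
  congr 1
  rw [inv_neg, neg_smul]
  abel

/-- uniform gradient bound of `P_{t-r} f` -/
theorem grad_rev (hC : IsGamma C) (hB : C.BEi κ) (hf : f ∈ C.TestI) {L : ℝ} (hL0 : 0 ≤ L)
    (hL : ∀ᵐ x ∂m, C.Γ f f x ≤ L) {r : ℝ} (h0 : 0 ≤ r) (hr : r ≤ t) :
    ∀ᵐ x ∂m, C.Γ (C.P (t - r) f) (C.P (t - r) f) x ≤ Real.exp (2 * |κ| * t) * L := by
  have hW := (hC.test_A hf.1).1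
  filter_upwards [IsGamma.P_grad hC hB (t := t - r) (by linarith) hW hL] with x hx
  refine hx.trans (mul_le_mul_of_nonneg_right (Real.exp_le_exp.2 ?_) hL0)
  have h1 : -κ ≤ |κ| := neg_le_abs κ
  have h2 : 0 ≤ |κ| := abs_nonneg κ
  have h3 : -κ * (t - r) ≤ |κ| * t := (mul_le_mul_of_nonneg_right h1 (by linarith)).trans
    (mul_le_mul_of_nonneg_left (by linarith) h2)
  linarith

/-- raw derivative, both functions moving -/
theorem deriv_raw2 (hC : IsGamma C) (hB : C.BEi κ) (hσ : MemLp σ 2 m) (hf : f ∈ C.TestI)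
    (hg : g ∈ C.TestI) (hs : 0 < s) (hst : s < t) :
    HasDerivAt (fun r => I (C.P r σ * C.Γ (C.P (t - r) f) (C.P (t - r) g)))
      (I (C.lap (C.P s σ) * C.Γ (C.P (t - s) f) (C.P (t - s) g))
        - I (C.P s σ * (C.Γ (C.lap (C.P (t - s) f)) (C.P (t - s) g)
          + C.Γ (C.P (t - s) f) (C.lap (C.P (t - s) g))))) s := by
  have hD := hC.toIsDir
  have hts : 0 < t - s := by linarith
  have hf2 := hC.memLp _ (hC.test_A hf.1).1
  have hg2 := hC.memLp _ (hC.test_A hg.1).1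
  have hfP : C.P (t - s) f ∈ C.TestI := IsGamma.P_testI hC hB hts.le hf
  have hgP : C.P (t - s) g ∈ C.TestI := IsGamma.P_testI hC hB hts.le hg
  have hfl : C.lap (C.P (t - s) f) ∈ C.W := hC.test_lap_mem hfP.1
  have hgl : C.lap (C.P (t - s) g) ∈ C.W := hC.test_lap_mem hgP.1
  obtain ⟨Lg, hLg0, hLg⟩ := bound_le (hC.test_Γ_top hg.1)
  obtain ⟨Lf, hLf0, hLf⟩ := bound_le (hC.test_Γ_top hfP.1)
  have hlapf : MemLp (C.Γ (C.lap (C.P (t - s) f)) (C.lap (C.P (t - s) f))) ∞ m := by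
    have e : C.lap (C.P (t - s) f) = C.P (t - s) (C.lap f) := hD.P_lap_of _ (hC.test_isLap hf.1)
    rw [e]
    exact IsGamma.P_Γ_top hC hB hts (hC.test_isLap hf.1).2.1 hf.2
  obtain ⟨Ll, hLl0, hLl⟩ := bound_le hlapf
  set L := max (max (Real.exp (2 * |κ| * t) * Lg) Lf) Ll with hL
  have key := hasDeriv_Γ (σ := fun r => C.P r σ) (b := fun r => C.P (t - r) f)
    (u := fun r => C.P (t - r) g) (σ' := C.lap (C.P s σ)) (b' := -C.lap (C.P (t - s) f))
    (u' := -C.lap (C.P (t - s) g)) (s := s) (L := L) hD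
    (fun r => hD.P_mem2 r hσ) (hD.P_isLap hs hσ).2.1
    (by filter_upwards [gt_mem_nhds hst] with r hr using hD.P_mem (by linarith) hf2)
    (hD.neg_mem hfl)
    (by filter_upwards [gt_mem_nhds hst] with r hr using hD.P_mem (by linarith) hg2)
    (hD.neg_mem hgl) (hD.P_deriv hs hσ) (derivW_rev hC hf2 hst) (derivW_rev hC hg2 hst)
    (by
      filter_upwards [lt_mem_nhds hs, gt_mem_nhds hst] with r hr0 hr1
      filter_upwards [grad_rev (t := t) hC hB hg hLg0 hLg hr0.le hr1.le] with x hx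
      exact hx.trans ((le_max_left _ _).trans (le_max_left _ _)))
    (by filter_upwards [hLf] with x hx using hx.trans ((le_max_right _ _).trans (le_max_left _ _)))
    (by
      rw [hD.Γ_neg_left hfl (hD.neg_mem hfl), hD.Γ_neg_right hfl hfl, neg_neg]
      filter_upwards [hLl] with x hx using hx.trans (le_max_right _ _))
  have e : I (C.P s σ * (C.Γ (-C.lap (C.P (t - s) f)) (C.P (t - s) g)
      + C.Γ (C.P (t - s) f) (-C.lap (C.P (t - s) g))))
      = -I (C.P s σ * (C.Γ (C.lap (C.P (t - s) f)) (C.P (t - s) g)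
      + C.Γ (C.P (t - s) f) (C.lap (C.P (t - s) g)))) := by
    rw [← I_neg, hD.Γ_neg_left hfl (hC.test_A hgP.1).1, hD.Γ_neg_right (hC.test_A hfP.1).1 hgl]
    congr 1
    ring
  rw [e, ← sub_eq_add_neg] at key
  exact key

/-- raw derivative, the second function fixed -/
theorem deriv_raw1 (hC : IsGamma C) (hB : C.BEi κ) (hσ : MemLp σ 2 m) (hf : f ∈ C.TestI)
    (hu : u ∈ C.TestI) (hs : 0 < s) (hst : s < t) :
    HasDerivAt (fun r => I (C.P r σ * C.Γ (C.P (t - r) f) u))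
      (I (C.lap (C.P s σ) * C.Γ (C.P (t - s) f) u)
        - I (C.P s σ * C.Γ (C.lap (C.P (t - s) f)) u)) s := by
  have hD := hC.toIsDir
  have hts : 0 < t - s := by linarith
  have hf2 := hC.memLp _ (hC.test_A hf.1).1
  have huW := (hC.test_A hu.1).1
  have hfP : C.P (t - s) f ∈ C.TestI := IsGamma.P_testI hC hB hts.le hf
  have hfl : C.lap (C.P (t - s) f) ∈ C.W := hC.test_lap_mem hfP.1
  obtain ⟨Lg, hLg0, hLg⟩ := bound_le (hC.test_Γ_top hu.1)
  obtain ⟨Lf, hLf0, hLf⟩ := bound_le (hC.test_Γ_top hfP.1)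
  have hlapf : MemLp (C.Γ (C.lap (C.P (t - s) f)) (C.lap (C.P (t - s) f))) ∞ m := by
    have e : C.lap (C.P (t - s) f) = C.P (t - s) (C.lap f) := hD.P_lap_of _ (hC.test_isLap hf.1)
    rw [e]
    exact IsGamma.P_Γ_top hC hB hts (hC.test_isLap hf.1).2.1 hf.2
  obtain ⟨Ll, hLl0, hLl⟩ := bound_le hlapf
  set L := max (max Lg Lf) Ll with hL
  have hu0 : Tendsto (fun r => C.nrm2 ((r - s)⁻¹ • (u - u) - 0)) (𝓝[≠] s) (𝓝 0) := by
    have e : ∀ r : ℝ, C.nrm2 ((r - s)⁻¹ • (u - u) - 0) = 0 := fun r => by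
      rw [sub_self, smul_zero, sub_zero, Calc.nrm2, zero_pow two_ne_zero, I_zero,
        hD.Γ_zero_left hD.zero_mem, I_zero, add_zero]
    simp only [e]
    exact tendsto_const_nhds
  have key := hasDeriv_Γ (σ := fun r => C.P r σ) (b := fun r => C.P (t - r) f)
    (u := fun _ => u) (σ' := C.lap (C.P s σ)) (b' := -C.lap (C.P (t - s) f))
    (u' := 0) (s := s) (L := L) hD
    (fun r => hD.P_mem2 r hσ) (hD.P_isLap hs hσ).2.1
    (by filter_upwards [gt_mem_nhds hst] with r hr using hD.P_mem (by linarith) hf2)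
    (hD.neg_mem hfl) (Eventually.of_forall fun _ => huW)
    hD.zero_mem (hD.P_deriv hs hσ) (derivW_rev hC hf2 hst) hu0
    (Eventually.of_forall fun _ => by
      filter_upwards [hLg] with x hx using hx.trans ((le_max_left _ _).trans (le_max_left _ _)))
    (by filter_upwards [hLf] with x hx using hx.trans ((le_max_right _ _).trans (le_max_left _ _)))
    (by
      rw [hD.Γ_neg_left hfl (hD.neg_mem hfl), hD.Γ_neg_right hfl hfl, neg_neg]
      filter_upwards [hLl] with x hx using hx.trans (le_max_right _ _))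
  have e : I (C.P s σ * (C.Γ (-C.lap (C.P (t - s) f)) u + C.Γ (C.P (t - s) f) 0))
      = -I (C.P s σ * C.Γ (C.lap (C.P (t - s) f)) u) := by
    rw [← I_neg, hD.Γ_neg_left hfl huW, hD.symm _ (hC.test_A hfP.1).1 _ hD.zero_mem,
      hD.Γ_zero_left (hC.test_A hfP.1).1]
    congr 1
    ring
  rw [e, ← sub_eq_add_neg] at key
  exact key

/-- raw derivative, both functions fixed -/
theorem deriv_raw0 (hC : IsGamma C) (hσ : MemLp σ 2 m) (hf : f ∈ C.TestI)
    (hu : u ∈ C.TestI) (hs : 0 < s) :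
    HasDerivAt (fun r => I (C.P r σ * C.Γ f u)) (I (C.lap (C.P s σ) * C.Γ f u)) s := by
  have hD := hC.toIsDir
  have fW := (hC.test_A hf.1).1
  have huW := (hC.test_A hu.1).1
  obtain ⟨Lg, hLg0, hLg⟩ := bound_le (hC.test_Γ_top hu.1)
  obtain ⟨Lf, hLf0, hLf⟩ := bound_le (hC.test_Γ_top hf.1)
  set L := max Lg Lf with hL
  have z0 : ∀ v : M →ₘ[m] ℝ, Tendsto (fun r => C.nrm2 ((r - s)⁻¹ • (v - v) - 0)) (𝓝[≠] s) (𝓝 0) := by
    intro v
    have e : ∀ r : ℝ, C.nrm2 ((r - s)⁻¹ • (v - v) - 0) = 0 := fun r => by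
      rw [sub_self, smul_zero, sub_zero, Calc.nrm2, zero_pow two_ne_zero, I_zero,
        hD.Γ_zero_left hD.zero_mem, I_zero, add_zero]
    simp only [e]
    exact tendsto_const_nhds
  have key := hasDeriv_Γ (σ := fun r => C.P r σ) (b := fun _ => f)
    (u := fun _ => u) (σ' := C.lap (C.P s σ)) (b' := 0)
    (u' := 0) (s := s) (L := L) hD
    (fun r => hD.P_mem2 r hσ) (hD.P_isLap hs hσ).2.1
    (Eventually.of_forall fun _ => fW) hD.zero_mem (Eventually.of_forall fun _ => huW)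
    hD.zero_mem (hD.P_deriv hs hσ) (z0 f) (z0 u)
    (Eventually.of_forall fun _ => by
      filter_upwards [hLg] with x hx using hx.trans (le_max_left _ _))
    (by filter_upwards [hLf] with x hx using hx.trans (le_max_right _ _))
    (by
      rw [hD.Γ_zero_left hD.zero_mem]
      filter_upwards [zero_ae (M := M) (m := m)] with x hx
      rw [hx]; exact hLg0.trans (le_max_left _ _))
  have e : I (C.P s σ * (C.Γ 0 u + C.Γ f 0)) = 0 := by
    rw [hD.Γ_zero_left huW, hD.symm _ fW _ hD.zero_mem, hD.Γ_zero_left fW, add_zero, mul_zero,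
      I_zero]
  rw [e, add_zero] at key
  exact key

/-- the Laplacian of a test function against `Γ(f,g)` -/
theorem lap_Γ (hC : IsGamma C) (hB : C.BEi κ) {ζ ζ' : M →ₘ[m] ℝ} (hζ : C.IsLap ζ ζ')
    (hζA : ζ ∈ C.A) (hf : f ∈ C.Test) (hg : g ∈ C.Test) :
    I (ζ' * C.Γ f g) = 2 * C.NN κ f g ζ + I (ζ * (C.Γ f (C.lap g) + C.Γ g (C.lap f)))
      + 2 * κ * I (ζ * C.Γ f g) := by
  have hΓ := hC.Γ_mem hB hf hg
  have h1 : I (C.Γ ζ (C.Γ f g)) = -I (ζ' * C.Γ f g) := hζ.2.2 _ hΓ.1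
  have h2 := hC.symm _ hζA.1 _ hΓ.1
  rw [h2] at h1
  unfold Calc.NN
  linarith

/-- derivative of `r ↦ ∫ P_r σ Γ(P_{t-r} f, P_{t-r} g)` -/
theorem deriv_bb (hC : IsGamma C) (hB : C.BEi κ) (hσ : MemLp σ 2 m) (hσt : MemLp σ ∞ m)
    (hf : f ∈ C.TestI) (hg : g ∈ C.TestI) (hs : 0 < s) (hst : s < t) :
    HasDerivAt (fun r => I (C.P r σ * C.Γ (C.P (t - r) f) (C.P (t - r) g)))
      (2 * C.NN κ (C.P (t - s) f) (C.P (t - s) g) (C.P s σ)
        + 2 * κ * I (C.P s σ * C.Γ (C.P (t - s) f) (C.P (t - s) g))) s := by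
  have hD := hC.toIsDir
  have hts : 0 < t - s := by linarith
  have hfP : C.P (t - s) f ∈ C.TestI := IsGamma.P_testI hC hB hts.le hf
  have hgP : C.P (t - s) g ∈ C.TestI := IsGamma.P_testI hC hB hts.le hg
  have h1 := deriv_raw2 hC hB hσ hf hg hs hst
  have hζ : C.P s σ ∈ C.A := ⟨hD.P_mem hs hσ, hD.P_memTop hs.le hσ hσt⟩
  rw [lap_Γ hC hB (hD.P_isLap hs hσ) hζ hfP.1 hgP.1] at h1
  have e : C.Γ (C.lap (C.P (t - s) f)) (C.P (t - s) g) = C.Γ (C.P (t - s) g) (C.lap (C.P (t - s) f)) :=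
    hD.symm _ (hC.test_lap_mem hfP.1) _ (hC.test_A hgP.1).1
  rw [e, add_comm (C.Γ (C.P (t - s) g) (C.lap (C.P (t - s) f)))] at h1
  convert h1 using 1
  ring

/-- derivative of `r ↦ ∫ P_r σ Γ(P_{t-r} f, u)` -/
theorem deriv_bu (hC : IsGamma C) (hB : C.BEi κ) (hσ : MemLp σ 2 m) (hσt : MemLp σ ∞ m)
    (hf : f ∈ C.TestI) (hu : u ∈ C.TestI) (hs : 0 < s) (hst : s < t) :
    HasDerivAt (fun r => I (C.P r σ * C.Γ (C.P (t - r) f) u))
      (2 * C.NN κ (C.P (t - s) f) u (C.P s σ) + I (C.P s σ * C.Γ (C.P (t - s) f) (C.lap u))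
        + 2 * κ * I (C.P s σ * C.Γ (C.P (t - s) f) u)) s := by
  have hD := hC.toIsDir
  have hts : 0 < t - s := by linarith
  have hfP : C.P (t - s) f ∈ C.TestI := IsGamma.P_testI hC hB hts.le hf
  have h1 := deriv_raw1 hC hB hσ hf hu hs hst
  have hζ : C.P s σ ∈ C.A := ⟨hD.P_mem hs hσ, hD.P_memTop hs.le hσ hσt⟩
  have uW := (hC.test_A hu.1).1
  rw [lap_Γ hC hB (hD.P_isLap hs hσ) hζ hfP.1 hu.1] at h1
  have e : C.Γ (C.lap (C.P (t - s) f)) u = C.Γ u (C.lap (C.P (t - s) f)) :=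
    hD.symm _ (hC.test_lap_mem hfP.1) _ uW
  have k1 : MemLp (C.P s σ * C.Γ (C.P (t - s) f) (C.lap u)) 1 m :=
    mem_mul_top hζ.2 (hD.Γ_mem1 (hC.test_A hfP.1).1 (hC.test_lap_mem hu.1))
  have k2 : MemLp (C.P s σ * C.Γ u (C.lap (C.P (t - s) f))) 1 m :=
    mem_mul_top hζ.2 (hD.Γ_mem1 uW (hC.test_lap_mem hfP.1))
  rw [e, mul_add, I_add k1 k2] at h1
  convert h1 using 1
  ring

/-- derivative of `r ↦ ∫ P_r σ Γ(f, u)` -/
theorem deriv_uu (hC : IsGamma C) (hB : C.BEi κ) (hσ : MemLp σ 2 m) (hσt : MemLp σ ∞ m)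
    (hf : f ∈ C.TestI) (hu : u ∈ C.TestI) (hs : 0 < s) :
    HasDerivAt (fun r => I (C.P r σ * C.Γ f u))
      (2 * C.NN κ f u (C.P s σ) + I (C.P s σ * (C.Γ f (C.lap u) + C.Γ u (C.lap f)))
        + 2 * κ * I (C.P s σ * C.Γ f u)) s := by
  have hD := hC.toIsDir
  have h1 := deriv_raw0 hC hσ hf hu hs
  have hζ : C.P s σ ∈ C.A := ⟨hD.P_mem hs hσ, hD.P_memTop hs.le hσ hσt⟩
  rw [lap_Γ hC hB (hD.P_isLap hs hσ) hζ hf.1 hu.1] at h1
  exact h1

end flow

end Vale.Agent.P242.H924
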